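import Mathlib

namespace Vale.Agent.P180.R2.H259

open scoped TensorProduct

/-- The relations of `A ⊗ A` over `SΓ`. -/
def balSpan (S : Type*) {A Γ : Type*} [CommRing S] [Ring A] [Algebra S A] [Group Γ] (ρ : Γ →* A) :
    Submodule S (A ⊗[S] A) :=
  Submodule.span S {t | ∃ (u v : A) (g : Γ), t = (u * ρ g) ⊗ₜ[S] v - u ⊗ₜ[S] (ρ g * v)}

/-- `A` is separable relative to `Γ`. -/
def Cas (S : Type*) {A Γ : Type*} [CommRing S] [Ring A] [Algebra S A] [Group Γ] (ρ : Γ →* A) :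
    Prop :=
  ∃ (n : ℕ) (x y : Fin n → A), ∑ j, x j * y j = 1 ∧
    ∀ a : A, ∑ j, ((a * x j) ⊗ₜ[S] (y j) - (x j) ⊗ₜ[S] (y j * a)) ∈ balSpan S ρ

/-- Balanced form. -/
def CasB (S : Type*) {A Γ : Type*} (M : Type*) [CommRing S] [Ring A] [Algebra S A] [Group Γ]
    [AddCommGroup M] [Module S M] (ρ : Γ →* A) {n : ℕ} (x y : Fin n → A) : Prop :=
  ∀ β : A →ₗ[S] A →ₗ[S] M, (∀ a b g, β (a * ρ g) b = β a (ρ g * b)) →
    ∀ a, ∑ j, β (a * x j) (y j) = ∑ j, β (x j) (y j * a)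

section

variable {S A Γ M : Type*} [CommRing S] [Ring A] [Algebra S A] [Group Γ]
  [AddCommGroup M] [Module S M] (ρ : Γ →* A)

theorem lift_balSpan (β : A →ₗ[S] A →ₗ[S] M) (hβ : ∀ a b g, β (a * ρ g) b = β a (ρ g * b))
    {t : A ⊗[S] A} (ht : t ∈ balSpan S ρ) : TensorProduct.lift β t = 0 := by
  have : balSpan S ρ ≤ LinearMap.ker (TensorProduct.lift β) := by
    refine Submodule.span_le.2 ?_
    rintro _ ⟨u, v, g, rfl⟩
    simp [hβ]
  exact this ht

theorem casB_of {n : ℕ} (x y : Fin n → A)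
    (h : ∀ a : A, ∑ j, ((a * x j) ⊗ₜ[S] (y j) - (x j) ⊗ₜ[S] (y j * a)) ∈ balSpan S ρ) :
    CasB S M ρ x y := by
  intro β hβ a
  have := lift_balSpan ρ β hβ (h a)
  simp only [map_sum, map_sub, TensorProduct.lift.tmul, Finset.sum_sub_distrib] at this
  exact sub_eq_zero.1 this

end

/-- An equivariant frame of the `Γ × Γ`-module `A`, indexed by a `Γ × Γ`-set. -/
structure Frame (S : Type*) {A Γ : Type*} [CommRing S] [Ring A] [Algebra S A] [Group Γ]
    (ρ : Γ →* A) (Ξ : Type*) [Fintype Ξ] [MulAction (Γ × Γ) Ξ] where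
  b : Ξ → A
  a : Ξ → A →ₗ[S] S
  b_smul : ∀ (g h : Γ) (ξ : Ξ), b ((g, h) • ξ) = ρ g * b ξ * ρ h⁻¹
  a_smul : ∀ (g h : Γ) (ξ : Ξ) (x : A), a ((g, h) • ξ) (ρ g * x * ρ h⁻¹) = a ξ x
  sum_eq : ∀ x, ∑ ξ, a ξ x • b ξ = x

section Newton

variable {S A A' Γ : Type*} [CommRing S] [Ring A] [Algebra S A] [Ring A'] [Algebra S A'] [Group Γ]

/-- bilinear over the group -/
def BiLin (ρ : Γ →* A) (ρ' : Γ →* A') (φ : A →ₗ[S] A') : Prop :=
  (∀ g a, φ (ρ g * a) = ρ' g * φ a) ∧ ∀ g a, φ (a * ρ g) = φ a * ρ' g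

/-- defect of multiplicativity -/
def dfc (φ : A →ₗ[S] A') : A →ₗ[S] A →ₗ[S] A' :=
  LinearMap.mk₂ S (fun a b => φ (a * b) - φ a * φ b)
    (by intro a b c; simp only [add_mul, map_add]; abel)
    (by intro c a b; simp only [smul_mul_assoc, map_smul, smul_sub])
    (by intro a b c; simp only [mul_add, map_add]; abel)
    (by intro c a b; simp only [mul_smul_comm, map_smul, smul_sub])

theorem dfc_apply (φ : A →ₗ[S] A') (a b : A) : dfc φ a b = φ (a * b) - φ a * φ b := rfl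

/-- correction -/
def corr {n : ℕ} (x y : Fin n → A) (φ : A →ₗ[S] A') : A →ₗ[S] A' :=
  ∑ j, (LinearMap.mulLeft S (φ (x j))).comp (dfc φ (y j))

theorem corr_apply {n : ℕ} (x y : Fin n → A) (φ : A →ₗ[S] A') (a : A) :
    corr x y φ a = ∑ j, φ (x j) * dfc φ (y j) a := by
  simp [corr]

theorem biLin_corr {n : ℕ} {ρ : Γ →* A} {ρ' : Γ →* A'} (x y : Fin n → A)
    (hb : CasB S A' ρ x y) (φ : A →ₗ[S] A') (hφ : BiLin ρ ρ' φ) :
    BiLin ρ ρ' (φ + corr x y φ) := by
  obtain ⟨hl, hr⟩ := hφ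
  refine ⟨fun g a => ?_, fun g a => ?_⟩
  · have h1 : corr x y φ (ρ g * a) = ρ' g * corr x y φ a := by
      have h2 := hb ((LinearMap.mul S A').compl₁₂ φ ((dfc φ).flip a)) (by
        intro u v h
        simp only [LinearMap.compl₁₂_apply, LinearMap.mul_apply', LinearMap.flip_apply, dfc_apply,
          hr, hl, mul_assoc, mul_sub]) (ρ g)
      simp only [LinearMap.compl₁₂_apply, LinearMap.mul_apply', LinearMap.flip_apply] at h2
      rw [corr_apply, corr_apply, Finset.mul_sum]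
      have h3 : ∀ j, φ (x j) * dfc φ (y j) (ρ g * a) = φ (x j) * dfc φ (y j * ρ g) a := by
        intro j
        simp only [dfc_apply, hl, hr, mul_assoc]
      simp only [h3]
      rw [← h2]
      simp only [hl, mul_assoc]
    rw [LinearMap.add_apply, LinearMap.add_apply, h1, hl, mul_add]
  · have h1 : corr x y φ (a * ρ g) = corr x y φ a * ρ' g := by
      rw [corr_apply, corr_apply, Finset.sum_mul]
      refine Finset.sum_congr rfl fun j _ => ?_
      simp only [dfc_apply, ← mul_assoc, hr]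
      rw [mul_sub, mul_sub, sub_mul]
      simp only [mul_assoc]
    rw [LinearMap.add_apply, LinearMap.add_apply, h1, hr, add_mul]

theorem dfc_corr {n : ℕ} {ρ : Γ →* A} {ρ' : Γ →* A'} (x y : Fin n → A)
    (hb : CasB S A' ρ x y) (h1 : ∑ j, x j * y j = 1) (φ : A →ₗ[S] A') (hφ : BiLin ρ ρ' φ)
    (a b : A) :
    dfc (φ + corr x y φ) a b = (1 - φ 1) * dfc φ a b + (∑ j, dfc φ (x j) (y j)) * dfc φ a b
      + ∑ j, dfc φ a (x j) * dfc φ (y j) b - corr x y φ a * corr x y φ b := by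
  obtain ⟨hl, hr⟩ := hφ
  have e1 : ∀ y a b, dfc φ y (a * b) = -(φ y * dfc φ a b) + dfc φ (y * a) b + dfc φ y a * φ b := by
    intro y a b
    simp only [dfc_apply, mul_sub, sub_mul, mul_assoc]
    abel
  have e2 : corr x y φ (a * b) = -((∑ j, φ (x j) * φ (y j)) * dfc φ a b)
      + ∑ j, φ (x j) * dfc φ (y j * a) b + corr x y φ a * φ b := by
    rw [corr_apply, corr_apply]
    simp only [e1, mul_add, Finset.sum_add_distrib, mul_neg, Finset.sum_neg_distrib,
      Finset.sum_mul, mul_assoc]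
  have e3 : ∑ j, φ (x j) * dfc φ (y j * a) b = ∑ j, φ (a * x j) * dfc φ (y j) b := by
    have h2 := hb ((LinearMap.mul S A').compl₁₂ φ ((dfc φ).flip b)) (by
        intro u v h
        simp only [LinearMap.compl₁₂_apply, LinearMap.mul_apply', LinearMap.flip_apply, dfc_apply,
          hr, hl, mul_assoc, mul_sub]) a
    simp only [LinearMap.compl₁₂_apply, LinearMap.mul_apply', LinearMap.flip_apply] at h2
    exact h2.symm
  have e4 : ∑ j, φ (a * x j) * dfc φ (y j) b = φ a * corr x y φ b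
      + ∑ j, dfc φ a (x j) * dfc φ (y j) b := by
    rw [corr_apply, Finset.mul_sum, ← Finset.sum_add_distrib]
    refine Finset.sum_congr rfl fun j _ => ?_
    rw [dfc_apply φ a (x j), sub_mul, mul_assoc]
    abel
  have e5 : ∑ j, φ (x j) * φ (y j) = φ 1 - ∑ j, dfc φ (x j) (y j) := by
    simp only [dfc_apply, Finset.sum_sub_distrib, ← map_sum, h1]
    abel
  rw [dfc_apply, LinearMap.add_apply, LinearMap.add_apply, LinearMap.add_apply, e2, e3, e4, e5]
  have e6 : φ (a * b) = dfc φ a b + φ a * φ b := by rw [dfc_apply]; abel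
  rw [e6]
  simp only [sub_mul, add_mul, mul_add, one_mul]
  abel

variable (I : Ideal S)

theorem mul_mem_smul {m n : ℕ} {a b : A'} (ha : a ∈ I ^ m • (⊤ : Submodule S A'))
    (hb : b ∈ I ^ n • (⊤ : Submodule S A')) : a * b ∈ I ^ (m + n) • (⊤ : Submodule S A') := by
  refine Submodule.smul_induction_on ha (fun r hr c _ => ?_) (fun c d hc hd => ?_)
  · refine Submodule.smul_induction_on hb (fun s hs c' _ => ?_) (fun c d hc hd => ?_)
    · rw [smul_mul_smul_comm, pow_add]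
      exact Submodule.smul_mem_smul (Ideal.mul_mem_mul hr hs) trivial
    · rw [mul_add]; exact Submodule.add_mem _ hc hd
  · rw [add_mul]; exact Submodule.add_mem _ hc hd

theorem smul_top_mono {m n : ℕ} (h : m ≤ n) {a : A'} (ha : a ∈ I ^ n • (⊤ : Submodule S A')) :
    a ∈ I ^ m • (⊤ : Submodule S A') :=
  Submodule.smul_mono_left (Ideal.pow_le_pow_right h) ha

/-- one step -/
theorem step {n : ℕ} {ρ : Γ →* A} {ρ' : Γ →* A'} (x y : Fin n → A)
    (hb : CasB S A' ρ x y) (h1 : ∑ j, x j * y j = 1) (φ : A →ₗ[S] A') (hφ : BiLin ρ ρ' φ)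
    (m : ℕ) (hm : ∀ a b, dfc φ a b ∈ I ^ (m + 1) • (⊤ : Submodule S A'))
    (hφ1 : φ 1 - 1 ∈ I • (⊤ : Submodule S A')) :
    BiLin ρ ρ' (φ + corr x y φ) ∧
    (∀ a b, dfc (φ + corr x y φ) a b ∈ I ^ (m + 2) • (⊤ : Submodule S A')) ∧
    (∀ a, (φ + corr x y φ) a - φ a ∈ I ^ (m + 1) • (⊤ : Submodule S A')) ∧
    (φ + corr x y φ) 1 - 1 ∈ I • (⊤ : Submodule S A') := by
  have hc : ∀ a, corr x y φ a ∈ I ^ (m + 1) • (⊤ : Submodule S A') := by
    intro a
    rw [corr_apply]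
    refine Submodule.sum_mem _ fun j _ => ?_
    have : φ (x j) ∈ I ^ 0 • (⊤ : Submodule S A') := by simp
    simpa using mul_mem_smul I this (hm (y j) a)
  refine ⟨biLin_corr x y hb φ hφ, fun a b => ?_, fun a => ?_, ?_⟩
  · rw [dfc_corr x y hb h1 φ hφ]
    refine Submodule.sub_mem _ (Submodule.add_mem _ (Submodule.add_mem _ ?_ ?_) ?_) ?_
    · have h2 : (1 - φ 1 : A') ∈ I ^ 1 • (⊤ : Submodule S A') := by
        rw [pow_one, ← neg_sub]; exact Submodule.neg_mem _ hφ1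
      have := mul_mem_smul I h2 (hm a b)
      rwa [show 1 + (m + 1) = m + 2 by ring] at this
    · rw [Finset.sum_mul]
      exact Submodule.sum_mem _ fun j _ => smul_top_mono I (by omega)
        (mul_mem_smul I (hm (x j) (y j)) (hm a b))
    · exact Submodule.sum_mem _ fun j _ => smul_top_mono I (by omega)
        (mul_mem_smul I (hm a (x j)) (hm (y j) b))
    · exact smul_top_mono I (by omega) (mul_mem_smul I (hc a) (hc b))
  · simpa using hc a
  · have h3 : corr x y φ 1 ∈ I • (⊤ : Submodule S A') := by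
      have := smul_top_mono I (show 1 ≤ m + 1 by omega) (hc 1)
      rwa [pow_one] at this
    have : (φ + corr x y φ) 1 - 1 = (φ 1 - 1) + corr x y φ 1 := by
      rw [LinearMap.add_apply]; abel
    rw [this]
    exact Submodule.add_mem _ hφ1 h3

/-- the sequence -/
noncomputable def newt {n : ℕ} (x y : Fin n → A) (φ : A →ₗ[S] A') : ℕ → (A →ₗ[S] A')
  | 0 => φ
  | m + 1 => newt x y φ m + corr x y (newt x y φ m)

theorem newt_spec {n : ℕ} {ρ : Γ →* A} {ρ' : Γ →* A'} (x y : Fin n → A)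
    (hb : CasB S A' ρ x y) (h1 : ∑ j, x j * y j = 1) (φ : A →ₗ[S] A') (hφ : BiLin ρ ρ' φ)
    (hm : ∀ a b, φ (a * b) - φ a * φ b ∈ I • (⊤ : Submodule S A'))
    (hφ1 : φ 1 - 1 ∈ I • (⊤ : Submodule S A')) (m : ℕ) :
    BiLin ρ ρ' (newt x y φ m) ∧
    (∀ a b, dfc (newt x y φ m) a b ∈ I ^ (m + 1) • (⊤ : Submodule S A')) ∧
    (∀ a, newt x y φ (m + 1) a - newt x y φ m a ∈ I ^ (m + 1) • (⊤ : Submodule S A')) ∧
    (newt x y φ m) 1 - 1 ∈ I • (⊤ : Submodule S A') := by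
  induction m with
  | zero =>
    have h2 : ∀ a b, dfc φ a b ∈ I ^ (0 + 1) • (⊤ : Submodule S A') := by
      intro a b; simpa [dfc_apply] using hm a b
    have := step I x y hb h1 φ hφ 0 h2 hφ1
    exact ⟨hφ, h2, this.2.2.1, hφ1⟩
  | succ m ih =>
    obtain ⟨i1, i2, -, i4⟩ := ih
    have := step I x y hb h1 (newt x y φ m) i1 m i2 i4
    have h3 := step I x y hb h1 (newt x y φ (m + 1)) this.1 (m + 1) this.2.1 this.2.2.2
    exact ⟨this.1, this.2.1, h3.2.2.1, this.2.2.2⟩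

/-- finite stage form -/
theorem newton {n : ℕ} {ρ : Γ →* A} {ρ' : Γ →* A'} (x y : Fin n → A)
    (hb : CasB S A' ρ x y) (h1 : ∑ j, x j * y j = 1) (φ : A →ₗ[S] A') (hφ : BiLin ρ ρ' φ)
    (hm : ∀ a b, φ (a * b) - φ a * φ b ∈ I • (⊤ : Submodule S A'))
    (hφ1 : φ 1 - 1 ∈ I • (⊤ : Submodule S A')) (m : ℕ) :
    ∃ φ' : A →ₗ[S] A', BiLin ρ ρ' φ' ∧
      (∀ a b, φ' (a * b) - φ' a * φ' b ∈ I ^ (m + 1) • (⊤ : Submodule S A')) ∧
      ∀ a, φ' a - φ a ∈ I • (⊤ : Submodule S A') := by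
  refine ⟨newt x y φ m, (newt_spec I x y hb h1 φ hφ hm hφ1 m).1,
    (newt_spec I x y hb h1 φ hφ hm hφ1 m).2.1, ?_⟩
  intro a
  induction m with
  | zero => simp [newt]
  | succ m ih =>
    have h2 := (newt_spec I x y hb h1 φ hφ hm hφ1 m).2.2.1 a
    have h3 : newt x y φ (m + 1) a - newt x y φ m a ∈ I • (⊤ : Submodule S A') := by
      have := smul_top_mono I (show 1 ≤ m + 1 by omega) h2
      rwa [pow_one] at this
    have : newt x y φ (m + 1) a - φ a = (newt x y φ (m + 1) a - newt x y φ m a) +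
      (newt x y φ m a - φ a) := by abel
    rw [this]
    exact Submodule.add_mem _ h3 ih

end Newton

end Vale.Agent.P180.R2.H259
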