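import Vale.Agent.P180.R2.H259.Iso

set_option linter.all false

namespace Vale.Agent.P180.R2.H259

open Vale.Agent.P180 Vale.Agent.P180.I IsLocalRing

universe u v

section Mp

variable {S T : Type*} [CommRing S] [CommRing T] (j : S →+* T) {G : Type*} [Group G]

/-- change of coefficients -/
noncomputable def mp : MonoidAlgebra S G →+* MonoidAlgebra T G := MonoidAlgebra.mapRingHom G j

theorem mp_coeff (a : MonoidAlgebra S G) (x : G) : (mp j a).coeff x = j (a.coeff x) :=
  MonoidAlgebra.coeff_mapRingHom _ _ _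

theorem mp_sg (g : G) : mp j (sg S g) = sg T g := by
  classical
  apply MonoidAlgebra.coeff_injective
  ext y
  rw [mp_coeff, sg_apply, sg_apply, MonoidAlgebra.coeff_single, MonoidAlgebra.coeff_single,
    Finsupp.single_apply, Finsupp.single_apply]
  split_ifs <;> simp

theorem mp_smul (c : S) (a : MonoidAlgebra S G) : mp j (c • a) = j c • mp j a := by
  apply MonoidAlgebra.coeff_injective
  ext y
  rw [mp_coeff]
  simp [mp_coeff]

theorem mp_inj (hj : Function.Injective j) : Function.Injective (mp j (G := G)) := by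
  intro a b h
  apply MonoidAlgebra.coeff_injective
  ext y
  apply hj
  rw [← mp_coeff, ← mp_coeff, h]

theorem mp_gen {R : Subgroup G} {b i : MonoidAlgebra S G} (h : Gen R b i) :
    Gen R (mp j b) (mp j i) := by
  obtain ⟨n, u, v, hu, hv, m, q, hq, hb⟩ := h
  refine ⟨n, fun l => mp j (u l), fun l => mp j (v l), fun l r hr => ?_, fun l r hr => ?_,
    m, q, hq, ?_⟩
  · rw [← mp_sg j, ← map_mul, hu l r hr, map_mul]
  · rw [← mp_sg j, ← map_mul, hv l r hr, map_mul]
  · rw [hb]
    simp only [map_sum, map_mul, mp_sg]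

variable [Finite G]

theorem exists_mp {a : MonoidAlgebra T G} (h : ∀ x, a.coeff x ∈ j.range) :
    ∃ a', mp j a' = a := by
  choose c hc using h
  refine ⟨MonoidAlgebra.ofCoeff (Finsupp.equivFunOnFinite.symm c), ?_⟩
  apply MonoidAlgebra.coeff_injective
  ext x
  rw [mp_coeff, ← hc]
  rfl

end Mp

section Iso

variable {κ k : Type*} [Field κ] [Field k] (j : κ →+* k) {G G' : Type*} [Group G] [Group G']
  [Finite G] [Finite G']

/-- the linear extension of an isomorphism of corners -/
theorem exists_ext {i : MonoidAlgebra κ G} {i' : MonoidAlgebra κ G'}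
    (hi : IsIdempotentElem i) (hi' : IsIdempotentElem i')
    (F : hi.Corner ≃ₐ[κ] hi'.Corner) :
    ∃ Φ : MonoidAlgebra k G →ₗ[k] MonoidAlgebra k G',
      (∀ x : MonoidAlgebra κ G, Φ (mp j x) = mp j (F (mkC κ hi x)).1) ∧
      (∀ a c, Φ (a * mp j i * c) = Φ a * Φ c) ∧
      (∀ a, mp j i' * Φ a = Φ a) ∧ (∀ a, Φ a * mp j i' = Φ a) := by
  have := Fintype.ofFinite G
  let σ : G → MonoidAlgebra k G' := fun ξ => mp j (F (mkC κ hi (sg κ ξ))).1
  let Φ : MonoidAlgebra k G →ₗ[k] MonoidAlgebra k G' :=
    { toFun := fun a => ∑ ξ, a.coeff ξ • σ ξ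
      map_add' := fun a b => by
        rw [← Finset.sum_add_distrib]
        exact Finset.sum_congr rfl fun ξ _ => by
          rw [MonoidAlgebra.coeff_add, Finsupp.add_apply]; exact add_smul (a.coeff ξ) (b.coeff ξ) (σ ξ)
      map_smul' := fun c a => by
        rw [RingHom.id_apply, Finset.smul_sum]
        exact Finset.sum_congr rfl fun ξ _ => by
          rw [MonoidAlgebra.coeff_smul, Finsupp.smul_apply, smul_eq_mul]; exact mul_smul c (a.coeff ξ) (σ ξ) }
  have hΦ : ∀ a, Φ a = ∑ ξ, a.coeff ξ • σ ξ := fun a => rfl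
  have h1 : ∀ x : MonoidAlgebra κ G, Φ (mp j x) = mp j (F (mkC κ hi x)).1 := by
    intro x
    conv_rhs => rw [sum_sg x]
    rw [hΦ, map_sum, map_sum]
    have h2 : (∑ ξ, F (mkC κ hi (x.coeff ξ • sg κ ξ))).1 =
      ∑ ξ, (F (mkC κ hi (x.coeff ξ • sg κ ξ))).1 := map_sum (incC κ hi') _ _
    rw [h2, map_sum]
    refine Finset.sum_congr rfl fun ξ _ => ?_
    rw [map_smul, map_smul, mp_coeff]
    change _ = mp j (x.coeff ξ • (F (mkC κ hi (sg κ ξ))).1)
    rw [mp_smul]
  have h3 : ∀ ξ, Φ (sg k ξ) = σ ξ := by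
    intro ξ
    rw [← mp_sg j, h1]
  have ind : ∀ {P : MonoidAlgebra k G → Prop}, (∀ ξ, P (sg k ξ)) → (∀ a b, P a → P b → P (a + b)) →
      (∀ (c : k) a, P a → P (c • a)) → P 0 → ∀ a, P a := by
    intro P hs ha hc h0 a
    induction a using MonoidAlgebra.induction_linear with
    | zero => exact h0
    | add a b h4 h5 => exact ha a b h4 h5
    | single g c =>
      have h6 : (MonoidAlgebra.single g c : MonoidAlgebra k G) = c • sg k g := by
        rw [sg_apply]; simp
      rw [h6]
      exact hc c _ (hs g)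
  refine ⟨Φ, h1, ?_, ?_, ?_⟩
  · intro a c
    refine ind (P := fun a => Φ (a * mp j i * c) = Φ a * Φ c) ?_ ?_ ?_ ?_ a
    · intro ξ
      refine ind (P := fun c => Φ (sg k ξ * mp j i * c) = Φ (sg k ξ) * Φ c) ?_ ?_ ?_ ?_ c
      · intro η
        rw [h3, h3, ← mp_sg j, ← mp_sg j, ← map_mul, ← map_mul, h1]
        change mp j _ = mp j _ * mp j _
        rw [← map_mul]
        congr 1
        change _ = (F (mkC κ hi (sg κ ξ)) * F (mkC κ hi (sg κ η))).1
        rw [← map_mul]
        congr 2
        apply corner_ext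
        rw [corner_mul_val]
        change i * (sg κ ξ * i * sg κ η) * i = i * sg κ ξ * i * (i * sg κ η * i)
        have : i * sg κ ξ * i * (i * sg κ η * i) = i * sg κ ξ * (i * i) * sg κ η * i := by
          simp only [mul_assoc]
        rw [this, hi.eq]
        simp only [mul_assoc]
      · intro a b h4 h5; rw [mul_add, map_add, map_add, mul_add, h4, h5]
      · intro c a h4; rw [mul_smul_comm, map_smul, map_smul, mul_smul_comm, h4]
      · simp
    · intro a b h4 h5; rw [add_mul, add_mul, map_add, map_add, add_mul, h4, h5]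
    · intro c a h4; rw [smul_mul_assoc, smul_mul_assoc, map_smul, map_smul, smul_mul_assoc, h4]
    · simp
  · intro a
    refine ind (P := fun a => mp j i' * Φ a = Φ a) ?_ ?_ ?_ ?_ a
    · intro ξ
      rw [h3]
      change mp j i' * mp j _ = mp j _
      rw [← map_mul, corner_left]
    · intro a b h4 h5; rw [map_add, mul_add, h4, h5]
    · intro c a h4; rw [map_smul, mul_smul_comm, h4]
    · simp
  · intro a
    refine ind (P := fun a => Φ a * mp j i' = Φ a) ?_ ?_ ?_ ?_ a
    · intro ξ
      rw [h3]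
      change mp j _ * mp j i' = mp j _
      rw [← map_mul, corner_right]
    · intro a b h4 h5; rw [map_add, add_mul, h4, h5]
    · intro c a h4; rw [map_smul, smul_mul_assoc, h4]
    · simp

theorem lin_ext {H : Type*} [Group H] (f g : MonoidAlgebra k H →ₗ[k] MonoidAlgebra k H)
    (h : ∀ ξ, f (sg k ξ) = g (sg k ξ)) : f = g := by
  refine LinearMap.ext fun a => ?_
  induction a using MonoidAlgebra.induction_linear with
  | zero => simp
  | add a b h4 h5 => rw [map_add, map_add, h4, h5]
  | single x c =>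
    have h6 : (MonoidAlgebra.single x c : MonoidAlgebra k H) = c • sg k x := by
      rw [sg_apply]; simp
    rw [h6, map_smul, map_smul, h]

theorem iso_base {Γ : Type*} [Group Γ] {i : MonoidAlgebra κ G} {i' : MonoidAlgebra κ G'}
    (hi : IsIdempotentElem i) (hi' : IsIdempotentElem i')
    (hj : IsIdempotentElem (mp j i)) (hj' : IsIdempotentElem (mp j i'))
    (s : Γ →* G) (s' : Γ →* G')
    (hk : ∀ g, ((sg κ).comp s) g * i = i * ((sg κ).comp s) g)
    (hk' : ∀ g, ((sg κ).comp s') g * i' = i' * ((sg κ).comp s') g)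
    (hc : ∀ g, ((sg k).comp s) g * mp j i = mp j i * ((sg k).comp s) g)
    (hc' : ∀ g, ((sg k).comp s') g * mp j i' = mp j i' * ((sg k).comp s') g)
    (F : hi.Corner ≃ₐ[κ] hi'.Corner) (hF : ∀ g, F (cRho hi _ hk g) = cRho hi' _ hk' g) :
    ∃ F' : hj.Corner ≃ₐ[k] hj'.Corner, ∀ g, F' (cRho hj _ hc g) = cRho hj' _ hc' g := by
  obtain ⟨Φ, h1, h2, h3, h4⟩ := exists_ext j hi hi' F
  obtain ⟨Ψ, g1, g2, g3, g4⟩ := exists_ext j hi' hi F.symm
  have h5 : ∀ a, Ψ (Φ a) = mp j i * a * mp j i := by
    intro a
    have := lin_ext (Ψ.comp Φ) ((LinearMap.mulLeft k (mp j i)).comp (LinearMap.mulRight k (mp j i)))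
      (by
        intro ξ
        rw [LinearMap.comp_apply, LinearMap.comp_apply, LinearMap.mulLeft_apply,
          LinearMap.mulRight_apply, ← mp_sg j, h1, g1, ← map_mul, ← map_mul]
        congr 1
        have : mkC κ hi' (F (mkC κ hi (sg κ ξ))).1 = F (mkC κ hi (sg κ ξ)) := mkC_incC hi' _
        rw [this, AlgEquiv.symm_apply_apply]
        change i * sg κ ξ * i = _
        rw [mul_assoc])
    have h6 := congrArg (fun f => f a) this
    simp only [LinearMap.comp_apply, LinearMap.mulLeft_apply, LinearMap.mulRight_apply] at h6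
    rw [h6, mul_assoc]
  have g5 : ∀ a, Φ (Ψ a) = mp j i' * a * mp j i' := by
    intro a
    have := lin_ext (Φ.comp Ψ) ((LinearMap.mulLeft k (mp j i')).comp (LinearMap.mulRight k (mp j i')))
      (by
        intro ξ
        rw [LinearMap.comp_apply, LinearMap.comp_apply, LinearMap.mulLeft_apply,
          LinearMap.mulRight_apply, ← mp_sg j, g1, h1, ← map_mul, ← map_mul]
        congr 1
        have : mkC κ hi (F.symm (mkC κ hi' (sg κ ξ))).1 = F.symm (mkC κ hi' (sg κ ξ)) :=
          mkC_incC hi _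
        rw [this, AlgEquiv.apply_symm_apply]
        change i' * sg κ ξ * i' = _
        rw [mul_assoc])
    have h6 := congrArg (fun f => f a) this
    simp only [LinearMap.comp_apply, LinearMap.mulLeft_apply, LinearMap.mulRight_apply] at h6
    rw [h6, mul_assoc]
  let F' : hj.Corner ≃ₐ[k] hj'.Corner :=
    { toFun := fun x => cornerOf hj' (Φ x.1) (h3 _) (h4 _)
      invFun := fun y => cornerOf hj (Ψ y.1) (g3 _) (g4 _)
      left_inv := fun x => corner_ext (by
        change Ψ (Φ x.1) = x.1
        rw [h5, corner_left, corner_right])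
      right_inv := fun y => corner_ext (by
        change Φ (Ψ y.1) = y.1
        rw [g5, corner_left, corner_right])
      map_mul' := fun x y => corner_ext (by
        change Φ (x.1 * y.1) = Φ x.1 * Φ y.1
        rw [← h2, corner_right])
      map_add' := fun x y => corner_ext (map_add Φ x.1 y.1)
      commutes' := fun r => corner_ext (by
        change Φ (r • mp j i) = r • mp j i'
        rw [map_smul, h1]
        congr 2
        have : mkC κ hi i = 1 := corner_ext (by
          change i * i * i = i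
          rw [hi.eq, hi.eq])
        rw [this, map_one]
        rfl) }
  refine ⟨F', fun g => corner_ext ?_⟩
  change Φ (sg k (s g) * mp j i) = sg k (s' g) * mp j i'
  rw [← mp_sg j, ← map_mul, h1]
  have : mkC κ hi (sg κ (s g) * i) = cRho hi _ hk g := mkC_incC hi (cRho hi _ hk g)
  rw [this, hF, cRho_val, map_mul]
  change mp j (sg κ (s' g)) * _ = _
  rw [mp_sg]

end Iso

end Vale.Agent.P180.R2.H259
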