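import Vale.Agent.P180.R2.H259.Spz
import Vale.Agent.P180.Int.Fin

set_option linter.all false

namespace Vale.Agent.P180.R2.H259

open Vale.Agent.P180 Vale.Agent.P180.I IsLocalRing

universe u v

section Dk

/-- A block over a field with an idempotent. -/
structure Dk (κ : Type u) [Field κ] (Γ : Type) [Group Γ] : Type (u + 1) where
  G : Type
  grp : Group G
  fin : Finite G
  b : MonoidAlgebra κ G
  hb : IsBlock b
  i : MonoidAlgebra κ G
  hi : IsIdempotentElem i
  s : Γ →* G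
  hk : ∀ g, ((sg κ).comp s) g * i = i * ((sg κ).comp s) g
  hbi : b * i = i
  hg : Gen s.range b i

attribute [instance] Dk.grp Dk.fin

/-- isomorphism of the interior algebras -/
def Dk.Iso {κ : Type u} [Field κ] {Γ : Type} [Group Γ] (m m' : Dk κ Γ) : Prop :=
  ∃ F : m.hi.Corner ≃ₐ[κ] m'.hi.Corner, ∀ g, F (cRho m.hi _ m.hk g) = cRho m'.hi _ m'.hk g

/-- dimension -/
noncomputable def Dk.dim {κ : Type u} [Field κ] {Γ : Type} [Group Γ] (m : Dk κ Γ) : ℕ :=
  Module.finrank κ m.hi.Corner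

theorem finite_Dk (κ : Type u) [Field κ] [IsAlgClosed κ] (Γ : Type) [Group Γ] [Finite Γ] (n : ℕ) :
    ∃ M₀ : Finset (Dk κ Γ), ∀ m : Dk κ Γ, m.dim ≤ n → ∃ m₀ ∈ M₀, m.Iso m₀ := by
  classical
  have key : ∀ r : ℕ, ∃ M₀ : Finset {m : Dk κ Γ // m.dim = r}, ∀ m : {m : Dk κ Γ // m.dim = r},
      ∃ m₀ ∈ M₀, m.1.Iso m₀.1 := by
    intro r
    have hfin : ∀ m : {m : Dk κ Γ // m.dim = r}, Module.Finite κ m.1.hi.Corner :=
      fun m => corner_finite m.1.hi
    exact H365.finite_classes (k := κ) (Γ := Γ) (Ξ := Xi Γ r) r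
      (M := {m : Dk κ Γ // m.dim = r}) (fun m => m.1.hi.Corner) (fun m => m.2)
      (fun m => cRho m.1.hi _ m.1.hk)
      (fun m => cas_corner m.1.hi m.1.hbi m.1.s rfl m.1.hk m.1.hg)
      (fun m => frame_corner m.1.hi m.1.s m.1.hk m.2)
  choose M₀ hM₀ using key
  refine ⟨(Finset.range (n + 1)).biUnion fun r => (M₀ r).image Subtype.val, fun m hm => ?_⟩
  obtain ⟨m₀, h0, h1⟩ := hM₀ m.dim ⟨m, rfl⟩
  refine ⟨m₀.1, ?_, h1⟩
  rw [Finset.mem_biUnion]
  exact ⟨m.dim, Finset.mem_range.2 (Nat.lt_succ_of_le hm), Finset.mem_image_of_mem _ h0⟩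

/-- the datum of an abstract group isomorphism -/
def mkDk {κ : Type u} [Field κ] {Γ : Type} [Group Γ] {G : Type} [Group G] [Finite G]
    {b : MonoidAlgebra κ G} (hb : IsBlock b) {R : Subgroup G} (e : R ≃* Γ) {i : MonoidAlgebra κ G}
    (hi : IsIdempotentElem i) (hRi : ∀ r ∈ R, sg κ r * i = i * sg κ r)
    (hbi : b * i = i) (hg : Gen R b i) : Dk κ Γ :=
  { G := G, grp := inferInstance, fin := inferInstance, b := b, hb := hb, i := i, hi := hi
    s := R.subtype.comp e.symm.toMonoidHom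
    hk := fun g => hRi _ (e.symm g).2
    hbi := hbi
    hg := by
      have hs : (R.subtype.comp e.symm.toMonoidHom).range = R := by
        ext x
        constructor
        · rintro ⟨t, rfl⟩
          exact (e.symm t).2
        · intro hx
          exact ⟨e ⟨x, hx⟩, by simp⟩
      rw [hs]; exact hg }

end Dk

section Up

variable {κ : Type v} [Field κ] [IsAlgClosed κ]

theorem Dk.mp_idem {k : Type*} [Field k] (j : κ →+* k) {Γ : Type} [Group Γ] (m : Dk κ Γ) :
    IsIdempotentElem (mp j m.i) := by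
  change mp j m.i * mp j m.i = mp j m.i
  rw [← map_mul, m.hi.eq]

theorem Dk.mp_comm {k : Type*} [Field k] (j : κ →+* k) {Γ : Type} [Group Γ] (m : Dk κ Γ) :
    ∀ g, ((sg k).comp m.s) g * mp j m.i = mp j m.i * ((sg k).comp m.s) g := by
  intro g
  have h1 := congrArg (mp j) (m.hk g)
  rw [map_mul, map_mul] at h1
  change mp j (sg κ (m.s g)) * _ = _ * mp j (sg κ (m.s g)) at h1
  rw [mp_sg] at h1
  exact h1

theorem Dk.Iso.base {k : Type*} [Field k] (j : κ →+* k) {Γ : Type} [Group Γ] {m m' : Dk κ Γ}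
    (h : m.Iso m') : ∃ F' : (m.mp_idem j).Corner ≃ₐ[k] (m'.mp_idem j).Corner,
      ∀ g, F' (cRho (m.mp_idem j) _ (m.mp_comm j) g) = cRho (m'.mp_idem j) _ (m'.mp_comm j) g := by
  obtain ⟨F, hF⟩ := h
  exact iso_base j m.hi m'.hi (m.mp_idem j) (m'.mp_idem j) m.s m'.s m.hk m'.hk (m.mp_comm j)
    (m'.mp_comm j) F hF

/-- the datum over `O` above a datum over the small field -/
noncomputable def Dk.up {O : Type u} [CommRing O] [IsLocalRing O]
    (j : κ →+* ResidueField O) {Γ : Type} [Group Γ] (m : Dk κ Γ) {B : MonoidAlgebra O m.G}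
    (hB : IsBlockR B) (hBb : rd B = mp j m.b) :
    Dt O Γ (Module.finrank (ResidueField O) (m.mp_idem j).Corner) :=
  { G := m.G, grp := inferInstance, fin := inferInstance, B := B, hB := hB, i := mp j m.i
    hi := m.mp_idem j
    s := m.s
    hk := m.mp_comm j
    hbi := by rw [hBb, ← map_mul, m.hbi]
    hg := by rw [hBb]; exact mp_gen j m.hg
    hr := rfl }

theorem Dk.Iso.morita {O : Type u} [CommRing O] [IsLocalRing O] [IsAdicComplete (maximalIdeal O) O]
    (j : κ →+* ResidueField O) {Γ : Type} [Group Γ] {m m' : Dk κ Γ} (h : m.Iso m')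
    {B : MonoidAlgebra O m.G} (hB : IsBlockR B) (hBb : rd B = mp j m.b)
    {B' : MonoidAlgebra O m'.G} (hB' : IsBlockR B') (hBb' : rd B' = mp j m'.b) :
    IsMoritaEquivalent O hB.Alg hB'.Alg := by
  obtain ⟨F', hF'⟩ := h.base j
  exact (m.up j hB hBb).morita (m'.up j hB' hBb') F' hF'

theorem Dk.full {k : Type u} [Field k] (j : κ →+* k) {Γ : Type} [Group Γ] (m : Dk κ Γ)
    {B : MonoidAlgebra k m.G} (hB : IsBlockR B) (hBb : B = mp j m.b) :
    IsMoritaEquivalent k hB.Alg (m.mp_idem j).Corner := by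
  have hBI : B * mp j m.i = mp j m.i := by rw [hBb, ← map_mul, m.hbi]
  refine isMoritaEquivalent_corner_corner hB.idem (m.mp_idem j) hBI ?_ ?_
  · rw [Subalgebra.mem_center_iff.mp hB.central, hBI]
  · rw [hBb]
    exact full_of_gen (mp_gen j m.hg)

theorem Dk.Iso.morita_field {k : Type u} [Field k] (j : κ →+* k) {Γ : Type} [Group Γ]
    {m m' : Dk κ Γ} (h : m.Iso m')
    {B : MonoidAlgebra k m.G} (hB : IsBlockR B) (hBb : B = mp j m.b)
    {B' : MonoidAlgebra k m'.G} (hB' : IsBlockR B') (hBb' : B' = mp j m'.b) :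
    IsMoritaEquivalent k hB.Alg hB'.Alg := by
  obtain ⟨F', -⟩ := h.base j
  exact ((m.full j hB hBb).trans k (IsMoritaEquivalent.of_algEquiv k F')).trans k
    ((m'.full j hB' hBb').symm k)

end Up

section Final

/-- A datum for one of the groups of order at most `n`. -/
abbrev Dn (κ : Type u) [Field κ] (n : ℕ) : Type (u + 1) :=
  Σ γ : GrpIdx n, @Dk κ _ (Fin γ.1) γ.inst

/-- The finite set of data over the small field. -/
theorem exists_data (κ : Type u) [Field κ] [IsAlgClosed κ] (n : ℕ) :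
    ∃ (N : ℕ) (m : Fin N → Dn κ n),
      ∀ (G : Type) [Group G] [Finite G] (b : MonoidAlgebra κ G) (hb : IsBlock b) (R : Subgroup G)
        (i : MonoidAlgebra κ G) (hi : IsIdempotentElem i), Nat.card R ≤ n →
        ∀ (hRi : ∀ r ∈ R, sg κ r * i = i * sg κ r) (hbi : b * i = i) (hg : Gen R b i),
        Module.finrank κ hi.Corner ≤ n →
        ∃ (t : Fin N) (e : @MulEquiv R (Fin (m t).1.1) _ (m t).1.inst.toMul),
          @Dk.Iso κ _ _ (m t).1.inst (@mkDk κ _ _ (m t).1.inst G _ _ b hb R e i hi hRi hbi hg)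
            (m t).2 := by
  classical
  choose M₀ hM₀ using fun (x : GrpIdx n) => @finite_Dk κ _ _ (Fin x.1) x.inst _ n
  let J : Type (u + 1) := Σ x : GrpIdx n, {m // m ∈ M₀ x}
  have hJ : Finite J := inferInstance
  let eJ := Finite.equivFin J
  refine ⟨Nat.card J, fun t => ⟨(eJ.symm t).1, (eJ.symm t).2.1⟩, ?_⟩
  intro G _ _ b hb R i hi hR hRi hbi hg hr
  obtain ⟨γ, ⟨e⟩⟩ := exists_grpIdx n R hR
  obtain ⟨m₀, h0, hF⟩ := hM₀ γ (@mkDk κ _ _ γ.inst G _ _ b hb R e i hi hRi hbi hg) hr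
  let j : J := ⟨γ, ⟨m₀, h0⟩⟩
  have key : ∀ j' : J, j' = j → ∃ (e : @MulEquiv R (Fin j'.1.1) _ j'.1.inst.toMul),
      @Dk.Iso κ _ _ j'.1.inst (@mkDk κ _ _ j'.1.inst G _ _ b hb R e i hi hRi hbi hg) j'.2.1 := by
    rintro _ rfl
    exact ⟨e, hF⟩
  exact ⟨eJ j, key (eJ.symm (eJ j)) (eJ.symm_apply_apply j)⟩

theorem unif (p : ℕ) [Fact p.Prime] (n : ℕ) :
    ∃ (N : ℕ) (H : Fin N → Type) (_ : ∀ t, Group (H t)) (_ : ∀ t, Finite (H t)),
      (∀ (k : Type u) [Field k] [IsAlgClosed k] [CharP k p],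
        ∃ (c : ∀ t, MonoidAlgebra k (H t)) (hc : ∀ t, IsBlockR (c t)),
          ∀ (G : Type) [Group G] [Finite G] (b : MonoidAlgebra k G) (hb : IsBlockR b)
            (R : Subgroup G) (i : MonoidAlgebra k G) (hi : IsIdempotentElem i),
            Nat.card R ≤ n → (∀ r ∈ R, sg k r * i = i * sg k r) → b * i = i → Gen R b i →
            Module.finrank k hi.Corner ≤ n →
            ∃ t, IsMoritaEquivalent k hb.Alg (hc t).Alg) ∧
      (∀ (O : Type u) [CommRing O] [IsDomain O] [IsDiscreteValuationRing O]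
        [IsAdicComplete (maximalIdeal O) O] [IsAlgClosed (ResidueField O)]
        [CharP (ResidueField O) p],
        ∃ (C : ∀ t, MonoidAlgebra O (H t)) (hC : ∀ t, IsBlockR (C t)),
          ∀ (G : Type) [Group G] [Finite G] (B : MonoidAlgebra O G) (hB : IsBlockR B)
            (R : Subgroup G) (i : MonoidAlgebra (ResidueField O) G) (hi : IsIdempotentElem i),
            Nat.card R ≤ n → (∀ r ∈ R, sg (ResidueField O) r * i = i * sg (ResidueField O) r) →
            rd B * i = i → Gen R (rd B) i → Module.finrank (ResidueField O) hi.Corner ≤ n →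
            ∃ t, IsMoritaEquivalent O hB.Alg (hC t).Alg) := by
  classical
  let κ : Type := AlgebraicClosure (ZMod p)
  obtain ⟨N, m, hm⟩ := exists_data κ n
  refine ⟨N, fun t => @Dk.G κ _ _ (m t).1.inst (m t).2, fun t => @Dk.grp κ _ _ (m t).1.inst (m t).2,
    fun t => @Dk.fin κ _ _ (m t).1.inst (m t).2, ?_, ?_⟩
  · intro k _ _ _
    letI := ZMod.algebra k p
    let j : κ →+* k := (IsAlgClosed.lift : AlgebraicClosure (ZMod p) →ₐ[ZMod p] k).toRingHom
    have hblk : ∀ t, IsBlockR (mp j (@Dk.b κ _ _ (m t).1.inst (m t).2)) := fun t =>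
      isBlockR_iff.mpr (mp_block j (@Dk.hb κ _ _ (m t).1.inst (m t).2))
    refine ⟨fun t => mp j (@Dk.b κ _ _ (m t).1.inst (m t).2), hblk, ?_⟩
    intro G _ _ b hb R i hi hR hRi hbi hg hr
    obtain ⟨b', hb', hbb⟩ := block_descend j (isBlockR_iff.mp hb)
    obtain ⟨i', hi', h1, h2, h3, h4⟩ := specialise j (b' := b') hi hRi (by rw [hbb]; exact hbi)
      (by rw [hbb]; exact hg)
    obtain ⟨t, e, hF⟩ := hm G b' hb' R i' hi' hR h1 h2 h3 (h4.trans hr)
    exact ⟨t, @Dk.Iso.morita_field κ _ _ k _ j _ (m t).1.inst _ _ hF b hb hbb.symm _ (hblk t) rfl⟩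
  · intro O _ _ _ _ _ _
    letI := ZMod.algebra (ResidueField O) p
    let j : κ →+* ResidueField O :=
      (IsAlgClosed.lift : AlgebraicClosure (ZMod p) →ₐ[ZMod p] ResidueField O).toRingHom
    have hblk : ∀ t, ∃ C : MonoidAlgebra O (@Dk.G κ _ _ (m t).1.inst (m t).2), IsBlockR C ∧
        rd C = mp j (@Dk.b κ _ _ (m t).1.inst (m t).2) := by
      intro t
      have h1 := mp_block j (@Dk.hb κ _ _ (m t).1.inst (m t).2)
      obtain ⟨C, hC⟩ := exists_lf (O := O) (Subalgebra.mem_center_iff.mp h1.central) h1.idem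
      exact ⟨C, isBlockR_of_lf h1 hC, hC.rd_eq⟩
    choose C hC hCr using hblk
    refine ⟨C, hC, ?_⟩
    intro G _ _ B hB R i hi hR hRi hbi hg hr
    obtain ⟨b', hb', hbb⟩ := block_descend j (isBlock_rd hB).1
    obtain ⟨i', hi', h1, h2, h3, h4⟩ := specialise j (b' := b') hi hRi (by rw [hbb]; exact hbi)
      (by rw [hbb]; exact hg)
    obtain ⟨t, e, hF⟩ := hm G b' hb' R i' hi' hR h1 h2 h3 (h4.trans hr)
    exact ⟨t, @Dk.Iso.morita κ _ _ O _ _ _ j _ (m t).1.inst _ _ hF B hB hbb.symm _ (hC t)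
      (hCr t)⟩

end Final

end Vale.Agent.P180.R2.H259
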