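import Vale.Agent.P180.R2.H259.Base

namespace Vale.Agent.P180.R2.H259

open MulAction

/-- The canonical index set. -/
abbrev Xi (Γ : Type) [Group Γ] (r : ℕ) : Type :=
  Σ H : Subgroup (Γ × Γ) × Fin r, (Γ × Γ) ⧸ H.1

noncomputable instance (Γ : Type) [Group Γ] [Finite Γ] (r : ℕ) : Fintype (Xi Γ r) :=
  Fintype.ofFinite _

section

variable {k A Γ : Type*} [Field k] [Ring A] [Algebra k A] [Group Γ]

/-- conjugation action on the algebra -/
def tw (k : Type*) {A Γ : Type*} [Field k] [Ring A] [Algebra k A] [Group Γ] (ρ : Γ →* A)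
    (t : Γ × Γ) : A →ₗ[k] A :=
  (LinearMap.mulLeft k (ρ t.1)).comp (LinearMap.mulRight k (ρ t.2⁻¹))

theorem tw_apply (ρ : Γ →* A) (t : Γ × Γ) (a : A) : tw k ρ t a = ρ t.1 * a * ρ t.2⁻¹ := by
  simp [tw, mul_assoc]

theorem tw_mul (ρ : Γ →* A) (t u : Γ × Γ) (a : A) : tw k ρ (t * u) a = tw k ρ t (tw k ρ u a) := by
  simp [tw_apply, mul_assoc]

theorem tw_one (ρ : Γ →* A) (a : A) : tw k ρ 1 a = a := by
  simp [tw_apply]

/-- fixed points -/
def fx (k : Type*) {A Γ : Type*} [Field k] [Ring A] [Algebra k A] [Group Γ] (ρ : Γ →* A)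
    (H : Subgroup (Γ × Γ)) : Submodule k A where
  carrier := {a | ∀ t ∈ H, tw k ρ t a = a}
  add_mem' ha hb t ht := by rw [map_add, ha t ht, hb t ht]
  zero_mem' t _ := map_zero _
  smul_mem' c a ha t ht := by rw [map_smul, ha t ht]

theorem exists_gens [Module.Finite k A] (ρ : Γ →* A) (H : Subgroup (Γ × Γ)) {r : ℕ}
    (hr : Module.finrank k A = r) :
    ∃ e : Fin r → A, (∀ i, e i ∈ fx k ρ H) ∧ ∀ a ∈ fx k ρ H, ∃ c : Fin r → k, a = ∑ i, c i • e i := by
  classical
  have hd : Module.finrank k (fx k ρ H) ≤ r := hr ▸ Submodule.finrank_le _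
  let b := Module.finBasis k (fx k ρ H)
  let e : Fin r → A := fun i => if h : i.1 < Module.finrank k (fx k ρ H) then (b ⟨i.1, h⟩ : A) else 0
  refine ⟨e, fun i => ?_, fun a ha => ?_⟩
  · simp only [e]
    split_ifs with h
    · exact (b ⟨i.1, h⟩).2
    · exact Submodule.zero_mem _
  · refine ⟨fun i => if h : i.1 < Module.finrank k (fx k ρ H) then b.repr ⟨a, ha⟩ ⟨i.1, h⟩ else 0, ?_⟩
    have h1 := congrArg Subtype.val (b.sum_repr ⟨a, ha⟩)
    simp only [Submodule.coe_sum, Submodule.coe_smul] at h1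
    refine h1.symm.trans ?_
    refine Fintype.sum_of_injective (Fin.castLE hd) (Fin.castLE_injective hd) _ _ ?_ ?_
    · intro i hi
      have : ¬ i.1 < Module.finrank k (fx k ρ H) := by
        intro h
        exact hi ⟨⟨i.1, h⟩, by ext; simp⟩
      simp [this]
    · intro i
      simp [e]

theorem exists_frame {Γ : Type} [Group Γ] [Finite Γ] {Ξ : Type*} [Fintype Ξ]
    [MulAction (Γ × Γ) Ξ] [Module.Finite k A] (ρ : Γ →* A) {r : ℕ}
    (hr : Module.finrank k A = r) (f : Frame k ρ Ξ) : Nonempty (Frame k ρ (Xi Γ r)) := by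
  classical
  choose e he1 he2 using fun H => exists_gens (k := k) ρ H hr
  let Ω := Quotient (orbitRel (Γ × Γ) Ξ)
  have : Fintype Ω := Fintype.ofFinite _
  have : Fintype (Subgroup (Γ × Γ)) := Fintype.ofFinite _
  have : ∀ H : Subgroup (Γ × Γ), Fintype ((Γ × Γ) ⧸ H) := fun H => Fintype.ofFinite _
  let st : Ω → Subgroup (Γ × Γ) := fun ω => stabilizer (Γ × Γ) ω.out
  have hbt : ∀ (t : Γ × Γ) ξ, f.b (t • ξ) = tw k ρ t (f.b ξ) := by
    intro t ξ
    rw [tw_apply]; exact f.b_smul t.1 t.2 ξ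
  have hat : ∀ (t : Γ × Γ) ξ x, f.a (t • ξ) (tw k ρ t x) = f.a ξ x := by
    intro t ξ x
    rw [tw_apply]; exact f.a_smul t.1 t.2 ξ x
  have hst : ∀ ω, f.b ω.out ∈ fx k ρ (st ω) := by
    intro ω t ht
    rw [← hbt]
    congr 1
  choose c hc using fun ω => he2 (st ω) (f.b ω.out) (hst ω)
  have hout : ∀ (H : Subgroup (Γ × Γ)) (t : Γ × Γ) (q : (Γ × Γ) ⧸ H),
      ∃ h ∈ H, (t • q).out = t * q.out * h := by
    intro H t q
    refine ⟨(t * q.out)⁻¹ * (t • q).out, ?_, by group⟩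
    have h1 : ((t * q.out : Γ × Γ) : (Γ × Γ) ⧸ H) = ((t • q).out : (Γ × Γ) ⧸ H) := by
      rw [QuotientGroup.out_eq']
      conv_rhs => rw [← QuotientGroup.out_eq' q]
      rfl
    exact QuotientGroup.eq.1 h1
  refine ⟨{
    b := fun x => tw k ρ x.2.out (e x.1.1 x.1.2)
    a := fun x => ∑ ω : Ω, if st ω = x.1.1 then c ω x.1.2 • f.a (x.2.out • ω.out) else 0
    b_smul := ?_
    a_smul := ?_
    sum_eq := ?_ }⟩
  · rintro g h ⟨⟨H, i⟩, q⟩
    change tw k ρ ((g, h) • q).out (e H i) = _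
    obtain ⟨u, hu, hu'⟩ := hout H (g, h) q
    rw [hu', tw_mul, he1 H i u hu, tw_mul, tw_apply ρ (g, h)]
  · rintro g h ⟨⟨H, i⟩, q⟩ x
    change (∑ ω : Ω, if st ω = H then c ω i • f.a (((g, h) • q).out • ω.out) else 0) _ =
      (∑ ω : Ω, if st ω = H then c ω i • f.a (q.out • ω.out) else 0) x
    rw [LinearMap.sum_apply, LinearMap.sum_apply]
    refine Finset.sum_congr rfl fun ω _ => ?_
    split_ifs with hω
    · obtain ⟨u, hu, hu'⟩ := hout H (g, h) q
      have hfix : u • ω.out = ω.out := by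
        rw [← hω] at hu; exact hu
      rw [LinearMap.smul_apply, LinearMap.smul_apply, hu', mul_smul, hfix, mul_smul]
      congr 1
      have := hat (g, h) (q.out • ω.out) x
      rwa [tw_apply] at this
    · simp
  · intro x
    have hS : ∀ g : Xi Γ r → A, ∑ x, g x =
        ∑ H : Subgroup (Γ × Γ), ∑ i : Fin r, ∑ q : (Γ × Γ) ⧸ H, g ⟨(H, i), q⟩ := by
      intro g
      rw [← Fintype.sum_prod_type' (fun H i => ∑ q : (Γ × Γ) ⧸ H, g ⟨(H, i), q⟩),
        ← Fintype.sum_sigma' (fun (Hi : Subgroup (Γ × Γ) × Fin r) (q : (Γ × Γ) ⧸ Hi.1) =>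
          g ⟨(Hi.1, Hi.2), q⟩)]
      exact Finset.sum_congr (Finset.ext fun _ => by simp) fun _ _ => rfl
    rw [hS]
    have h1 : ∀ (H : Subgroup (Γ × Γ)), (∑ i : Fin r, ∑ q : (Γ × Γ) ⧸ H,
        (∑ ω : Ω, if st ω = H then c ω i • f.a (q.out • ω.out) else 0) x • tw k ρ q.out (e H i)) =
        ∑ ω : Ω, if st ω = H then ∑ q : (Γ × Γ) ⧸ H,
          f.a (q.out • ω.out) x • f.b (q.out • ω.out) else 0 := by
      intro H
      rw [Finset.sum_comm]
      have h2 : ∀ q : (Γ × Γ) ⧸ H, (∑ i : Fin r,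
          (∑ ω : Ω, if st ω = H then c ω i • f.a (q.out • ω.out) else 0) x •
            tw k ρ q.out (e H i)) = ∑ ω : Ω, if st ω = H then
              f.a (q.out • ω.out) x • f.b (q.out • ω.out) else 0 := by
        intro q
        simp only [LinearMap.sum_apply, Finset.sum_smul]
        rw [Finset.sum_comm]
        refine Finset.sum_congr rfl fun ω _ => ?_
        split_ifs with hω
        · rw [hbt, hc ω, hω, map_sum, Finset.smul_sum]
          refine Finset.sum_congr rfl fun i _ => ?_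
          rw [LinearMap.smul_apply, map_smul, smul_smul, smul_eq_mul, mul_comm]
        · simp
      rw [Finset.sum_congr rfl fun q _ => h2 q, Finset.sum_comm]
      refine Finset.sum_congr rfl fun ω _ => ?_
      split_ifs with hω
      · rfl
      · simp
    rw [Finset.sum_congr rfl fun H _ => h1 H, Finset.sum_comm]
    have h3 : ∀ ω : Ω, (∑ H : Subgroup (Γ × Γ), if st ω = H then ∑ q : (Γ × Γ) ⧸ H,
          f.a (q.out • ω.out) x • f.b (q.out • ω.out) else 0) =
          ∑ q : (Γ × Γ) ⧸ st ω, f.a (q.out • ω.out) x • f.b (q.out • ω.out) := by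
      intro ω
      rw [Finset.sum_ite_eq, if_pos (Finset.mem_univ _)]
    rw [Finset.sum_congr rfl fun ω _ => h3 ω]
    conv_rhs => rw [← f.sum_eq x]
    rw [← Fintype.sum_sigma' (fun (ω : Ω) (q : (Γ × Γ) ⧸ st ω) =>
      f.a (q.out • ω.out) x • f.b (q.out • ω.out))]
    refine Fintype.sum_equiv (selfEquivSigmaOrbitsQuotientStabilizer (Γ × Γ) Ξ).symm _ _ ?_
    rintro ⟨ω, q⟩
    have : (selfEquivSigmaOrbitsQuotientStabilizer (Γ × Γ) Ξ).symm ⟨ω, q⟩ = q.out • ω.out := by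
      rw [← orbitEquivQuotientStabilizer_symm_apply, QuotientGroup.out_eq']
      rfl
    rw [this]

end

end Vale.Agent.P180.R2.H259
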