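import Vale.Agent.P180.R2.H259.L
import Vale.Agent.P180.R2.H259.Red
import Vale.Agent.P180.Bdl.B2

set_option linter.all false

namespace Vale.Agent.P180.R2.H259

open Vale.Agent.P180
open scoped TensorProduct

section Gen

variable {O : Type*} [CommRing O] {B Γ : Type*} [Ring B] [Algebra O B] [Group Γ]

/-- the interior structure of a corner -/
def cRho {i : B} (hi : IsIdempotentElem i) (σ : Γ →* B) (hc : ∀ g, σ g * i = i * σ g) :
    Γ →* hi.Corner where
  toFun g := cornerOf hi (σ g * i) (by rw [← mul_assoc, ← hc, mul_assoc, hi.eq])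
    (by rw [mul_assoc, hi.eq])
  map_one' := corner_ext (by
    change σ 1 * i = i
    rw [map_one, one_mul])
  map_mul' g h := corner_ext (by
    change σ (g * h) * i = σ g * i * (σ h * i)
    rw [map_mul, mul_assoc (σ g) i, ← mul_assoc i, ← hc, mul_assoc (σ h), hi.eq, mul_assoc])

theorem cRho_val {i : B} (hi : IsIdempotentElem i) (σ : Γ →* B) (hc : ∀ g, σ g * i = i * σ g)
    (g : Γ) : (cRho hi σ hc g).1 = σ g * i := rfl

/-- `mkCorner` as a linear map -/
def mkC (O : Type*) [CommRing O] {B : Type*} [Ring B] [Algebra O B] {i : B}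
    (hi : IsIdempotentElem i) : B →ₗ[O] hi.Corner where
  toFun x := mkCorner hi x
  map_add' x y := corner_ext (by
    change i * (x + y) * i = i * x * i + i * y * i
    rw [mul_add, add_mul])
  map_smul' c x := corner_ext (by
    change i * (c • x) * i = c • (i * x * i)
    rw [mul_smul_comm, smul_mul_assoc])

theorem mkC_val {i : B} (hi : IsIdempotentElem i) (x : B) : (mkC O hi x).1 = i * x * i := rfl

/-- inclusion as a linear map -/
def incC (O : Type*) [CommRing O] {B : Type*} [Ring B] [Algebra O B] {i : B}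
    (hi : IsIdempotentElem i) : hi.Corner →ₗ[O] B where
  toFun x := x.1
  map_add' x y := rfl
  map_smul' c x := rfl

theorem mkC_incC {i : B} (hi : IsIdempotentElem i) (x : hi.Corner) :
    mkC O hi (incC O hi x) = x := corner_ext (by
  change i * x.1 * i = x.1
  rw [corner_left, corner_right])

theorem cas_of_fintype {A : Type*} [Ring A] [Algebra O A] {ρ : Γ →* A} {ι : Type*} [Fintype ι]
    (x y : ι → A) (h1 : ∑ j, x j * y j = 1)
    (h : ∀ a : A, ∑ j, ((a * x j) ⊗ₜ[O] (y j) - (x j) ⊗ₜ[O] (y j * a)) ∈ balSpan O ρ) :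
    Cas O ρ := by
  let e := Fintype.equivFin ι
  refine ⟨Fintype.card ι, x ∘ e.symm, y ∘ e.symm, ?_, fun a => ?_⟩
  · simp only [Function.comp]
    rw [Equiv.sum_comp e.symm (fun j => x j * y j)]
    exact h1
  · simp only [Function.comp]
    rw [Equiv.sum_comp e.symm (fun j => ((a * x j) ⊗ₜ[O] (y j) - (x j) ⊗ₜ[O] (y j * a)))]
    exact h a

end Gen

section Grp

variable {O : Type*} [CommRing O] {G : Type*} [Group G]

/-- group elements -/
noncomputable def sg (O : Type*) [CommRing O] {G : Type*} [Group G] : G →* MonoidAlgebra O G :=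
  MonoidAlgebra.of O G

theorem sg_apply (g : G) : sg O g = MonoidAlgebra.single g 1 := rfl

theorem sg_inv_mul (g : G) : sg O g⁻¹ * sg O g = 1 := by rw [← map_mul, inv_mul_cancel, map_one]
theorem sg_mul_inv (g : G) : sg O g * sg O g⁻¹ = 1 := by rw [← map_mul, mul_inv_cancel, map_one]

/-- relative trace condition -/
def Gen (R : Subgroup G) (b i : MonoidAlgebra O G) : Prop :=
  ∃ (n : ℕ) (u v : Fin n → MonoidAlgebra O G),
    (∀ l, ∀ r ∈ R, sg O r * u l = u l * sg O r) ∧ (∀ l, ∀ r ∈ R, sg O r * v l = v l * sg O r) ∧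
    ∃ (m : ℕ) (q : Fin m → G), Function.Bijective (fun j => (q j : G ⧸ R)) ∧
      b = ∑ j, ∑ l, sg O (q j) * (u l * i * v l) * sg O (q j)⁻¹

theorem cas_abs {A Γ : Type*} [Ring A] [Algebra O A] [Group Γ] {ρ : Γ →* A} {ι : Type*}
    [Fintype ι] (x y : ι → A) (K1 K2 : ι → MonoidAlgebra O G →ₗ[O] A)
    (h : ∀ g : G, ∃ (τ : Equiv.Perm ι) (r : ι → Γ) (z : ι → A), ∀ j,
      x (τ j) = K1 j (sg O g) * ρ (r j) ∧ y j = ρ (r j) * z j ∧ K2 (τ j) (sg O g) = z j)
    (a : MonoidAlgebra O G) :
    ∑ j, (K1 j a ⊗ₜ[O] y j - x j ⊗ₜ[O] K2 j a) ∈ balSpan O ρ := by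
  induction a using MonoidAlgebra.induction_linear with
  | zero => simp
  | add a c ha hc' =>
    have : ∑ j, (K1 j (a + c) ⊗ₜ[O] y j - x j ⊗ₜ[O] K2 j (a + c)) =
        ∑ j, (K1 j a ⊗ₜ[O] y j - x j ⊗ₜ[O] K2 j a) +
        ∑ j, (K1 j c ⊗ₜ[O] y j - x j ⊗ₜ[O] K2 j c) := by
      rw [← Finset.sum_add_distrib]
      refine Finset.sum_congr rfl fun j _ => ?_
      rw [map_add, map_add, TensorProduct.add_tmul, TensorProduct.tmul_add]
      abel
    rw [this]; exact Submodule.add_mem _ ha hc'
  | single g c =>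
    have h1 : (MonoidAlgebra.single g c : MonoidAlgebra O G) = c • sg O g := by
      rw [sg_apply]; simp
    have h2 : ∑ j, (K1 j (c • sg O g) ⊗ₜ[O] y j - x j ⊗ₜ[O] K2 j (c • sg O g)) =
        c • ∑ j, (K1 j (sg O g) ⊗ₜ[O] y j - x j ⊗ₜ[O] K2 j (sg O g)) := by
      rw [Finset.smul_sum]
      refine Finset.sum_congr rfl fun j _ => ?_
      rw [map_smul, map_smul, ← TensorProduct.smul_tmul', TensorProduct.tmul_smul, smul_sub]
    rw [h1, h2]
    refine Submodule.smul_mem _ _ ?_
    obtain ⟨τ, r, z, hτ⟩ := h g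
    rw [Finset.sum_sub_distrib, ← Equiv.sum_comp τ (fun j => x j ⊗ₜ[O] K2 j (sg O g)),
      ← Finset.sum_sub_distrib]
    refine Submodule.sum_mem _ fun j _ => ?_
    obtain ⟨h3, h4, h5⟩ := hτ j
    rw [h3, h5, h4]
    have h6 : K1 j (sg O g) ⊗ₜ[O] (ρ (r j) * z j) - (K1 j (sg O g) * ρ (r j)) ⊗ₜ[O] z j =
        -((K1 j (sg O g) * ρ (r j)) ⊗ₜ[O] z j - K1 j (sg O g) ⊗ₜ[O] (ρ (r j) * z j)) := by abel
    rw [h6]
    exact Submodule.neg_mem _ (Submodule.subset_span ⟨_, _, _, rfl⟩)

theorem cas_corner {Γ : Type*} [Group Γ] {R : Subgroup G} {b i : MonoidAlgebra O G}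
    (hi : IsIdempotentElem i) (hbi : b * i = i) (s : Γ →* G) (hs : s.range = R)
    (hc : ∀ g, ((sg O).comp s) g * i = i * ((sg O).comp s) g) (hg : Gen R b i) :
    Cas O (cRho hi ((sg O).comp s) hc) := by
  classical
  obtain ⟨n, u, v, hu, hv, m, q, hq, hb⟩ := hg
  let K := mkC O hi
  let x : Fin m × Fin n → hi.Corner := fun j => K (sg O (q j.1) * u j.2)
  let y : Fin m × Fin n → hi.Corner := fun j => K (v j.2 * sg O (q j.1)⁻¹)
  refine cas_of_fintype x y ?_ ?_
  · apply corner_ext
    have h1 : ∀ j, (x j * y j).1 = i * (sg O (q j.1) * (u j.2 * i * v j.2) * sg O (q j.1)⁻¹) * i := by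
      intro j
      change i * (sg O (q j.1) * u j.2) * i * (i * (v j.2 * sg O (q j.1)⁻¹) * i) = _
      have : ∀ a c : MonoidAlgebra O G, i * a * i * (i * c * i) = i * a * (i * i) * c * i := by
        intro a c; simp only [mul_assoc]
      rw [this, hi.eq]
      simp only [mul_assoc]
    have h2 : (∑ j, x j * y j).1 = ∑ j, (x j * y j).1 := map_sum (incC O hi) _ _
    rw [h2, Finset.sum_congr rfl fun j _ => h1 j, ← Finset.sum_mul, ← Finset.mul_sum,
      Fintype.sum_prod_type, ← hb, mul_assoc, hbi, hi.eq]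
    rfl
  · have hbij : Function.Bijective (fun j => (q j : G ⧸ R)) := hq
    have key := cas_abs (ρ := cRho hi ((sg O).comp s) hc) x y
      (fun j => K.comp (LinearMap.mulRight O (sg O (q j.1) * u j.2)))
      (fun j => K.comp (LinearMap.mulLeft O (v j.2 * sg O (q j.1)⁻¹))) (by
        intro h
        let e : Fin m ≃ G ⧸ R := Equiv.ofBijective _ hbij
        let τ : Fin m ≃ Fin m := (e.trans (MulAction.toPerm h)).trans e.symm
        have hτ : ∀ j, (q (τ j) : G ⧸ R) = ((h * q j : G) : G ⧸ R) := by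
          intro j
          change e (τ j) = _
          simp only [τ, Equiv.trans_apply, Equiv.apply_symm_apply]
          rfl
        have hr : ∀ j, ∃ r : Γ, q (τ j) = h * q j * s r := by
          intro j
          have h2 := QuotientGroup.eq.1 (hτ j).symm
          rw [← hs] at h2
          obtain ⟨r, hr⟩ := h2
          exact ⟨r, by rw [hr]; group⟩
        choose r hr using hr
        refine ⟨τ.prodCongr (Equiv.refl (Fin n)), fun j => r j.1,
          fun j => K (v j.2 * sg O (q (τ j.1))⁻¹ * sg O h), ?_⟩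
        rintro ⟨j, l⟩
        have hsr : s (r j) ∈ R := hs ▸ ⟨r j, rfl⟩
        have hc1 : sg O (s (r j)) * i = i * sg O (s (r j)) := hc (r j)
        refine ⟨?_, ?_, rfl⟩
        · apply corner_ext
          rw [corner_mul_val, cRho_val]
          change i * (sg O (q (τ j)) * u l) * i = i * (sg O h * (sg O (q j) * u l)) * i *
            (sg O (s (r j)) * i)
          have e3 : ∀ a, i * a * i * (sg O (s (r j)) * i) = i * (a * sg O (s (r j))) * i := by
            intro a
            rw [← mul_assoc (i * a * i), mul_assoc (i * a) i, ← hc1, ← mul_assoc (i * a),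
              mul_assoc _ i i, hi.eq, mul_assoc i a]
          rw [e3, hr j]
          simp only [map_mul, mul_assoc]
          rw [← mul_assoc (sg O (s (r j))), hu l _ hsr]
          simp only [mul_assoc]
        · apply corner_ext
          rw [corner_mul_val, cRho_val]
          change i * (v l * sg O (q j)⁻¹) * i = sg O (s (r j)) * i *
            (i * (v l * sg O (q (τ j))⁻¹ * sg O h) * i)
          have e3 : ∀ a, sg O (s (r j)) * i * (i * a * i) = i * (sg O (s (r j)) * a) * i := by
            intro a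
            have : sg O (s (r j)) * i * (i * a * i) = sg O (s (r j)) * (i * i) * a * i := by
              simp only [mul_assoc]
            rw [this, hi.eq, hc1]
            simp only [mul_assoc]
          rw [e3]
          have e4 : sg O (s (r j)) * (v l * sg O (q (τ j))⁻¹ * sg O h) =
              v l * sg O (q j)⁻¹ := by
            rw [← mul_assoc, ← mul_assoc, hv l _ hsr, mul_assoc, mul_assoc, ← map_mul, ← map_mul,
              hr j]
            congr 2
            group
          rw [e4])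
    intro a
    have h6 := key a.1
    have h7 : ∀ j, a * x j = K (a.1 * (sg O (q j.1) * u j.2)) := by
      intro j
      apply corner_ext
      change a.1 * (i * (sg O (q j.1) * u j.2) * i) = i * (a.1 * (sg O (q j.1) * u j.2)) * i
      have h8 : a.1 * (i * (sg O (q j.1) * u j.2) * i) =
        (a.1 * i) * (sg O (q j.1) * u j.2) * i := by simp only [mul_assoc]
      have h9 : i * (a.1 * (sg O (q j.1) * u j.2)) * i =
        (i * a.1) * (sg O (q j.1) * u j.2) * i := by simp only [mul_assoc]
      rw [h8, h9, corner_right, corner_left]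
    have h8 : ∀ j, y j * a = K (v j.2 * sg O (q j.1)⁻¹ * a.1) := by
      intro j
      apply corner_ext
      change i * (v j.2 * sg O (q j.1)⁻¹) * i * a.1 = i * (v j.2 * sg O (q j.1)⁻¹ * a.1) * i
      have h8 : i * (v j.2 * sg O (q j.1)⁻¹) * i * a.1 =
        i * (v j.2 * sg O (q j.1)⁻¹) * (i * a.1) := by simp only [mul_assoc]
      have h9 : i * (v j.2 * sg O (q j.1)⁻¹ * a.1) * i =
        i * (v j.2 * sg O (q j.1)⁻¹) * (a.1 * i) := by simp only [mul_assoc]
      rw [h8, h9, corner_right, corner_left]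
    simp only [h7, h8]
    exact h6

end Grp

end Vale.Agent.P180.R2.H259
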