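import Vale.Agent.P180.R2.H259.Small

set_option linter.all false

/-!
P180: principal blocks of groups with a `p'`-subgroup `V` normalised by a defect group and with
few `(V, V)`-double cosets.
-/

namespace Vale.Agent.P180.R2.H259

open Vale.Agent.P180 IsLocalRing

variable {p : ℕ} [Fact p.Prime] {k : Type*} [Field k] [CharP k p] {G : Type*} [Group G] [Finite G]

/-- `(1/|V|) ∑ v` -/
noncomputable def av (k : Type*) [Field k] {G : Type*} [Group G] [Finite G] (V : Subgroup G) :
    MonoidAlgebra k G :=
  letI := Fintype.ofFinite V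
  (((Nat.card V : ℕ) : k)⁻¹) • ∑ v : V, sg k (v : G)

theorem sg_mul_av (V : Subgroup G) {v : G} (hv : v ∈ V) : sg k v * av k V = av k V := by
  unfold av
  letI := Fintype.ofFinite V
  rw [mul_smul_comm, Finset.mul_sum]
  congr 1
  refine Fintype.sum_equiv (Equiv.mulLeft (⟨v, hv⟩ : V)) (fun w : V => sg k v * sg k (w : G))
    (fun w : V => sg k (w : G)) fun w => ?_
  rw [← map_mul]
  rfl

theorem av_mul_sg (V : Subgroup G) {v : G} (hv : v ∈ V) : av k V * sg k v = av k V := by
  unfold av
  letI := Fintype.ofFinite V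
  rw [smul_mul_assoc, Finset.sum_mul]
  congr 1
  refine Fintype.sum_equiv (Equiv.mulRight (⟨v, hv⟩ : V)) (fun w : V => sg k (w : G) * sg k v)
    (fun w : V => sg k (w : G)) fun w => ?_
  rw [← map_mul]
  rfl

theorem av_idem (V : Subgroup G) (hV : ((Nat.card V : ℕ) : k) ≠ 0) :
    IsIdempotentElem (av k V) := by
  have h : ∀ a : MonoidAlgebra k G, (∀ v : V, sg k (v : G) * a = a) → av k V * a = a := by
    intro a ha
    unfold av
    letI := Fintype.ofFinite V
    rw [smul_mul_assoc, Finset.sum_mul, Finset.sum_congr rfl (fun v _ => ha v), Finset.sum_const,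
      Finset.card_univ, ← Nat.card_eq_fintype_card, ← Nat.cast_smul_eq_nsmul k, smul_smul,
      inv_mul_cancel₀ hV, one_smul]
  exact h _ fun v => sg_mul_av V v.2

theorem av_conj (V : Subgroup G) {x : G} (hx : ∀ v, v ∈ V ↔ x * v * x⁻¹ ∈ V) :
    sg k x * av k V = av k V * sg k x := by
  unfold av
  letI := Fintype.ofFinite V
  rw [mul_smul_comm, smul_mul_assoc, Finset.mul_sum, Finset.sum_mul]
  congr 1
  refine Fintype.sum_bijective (fun v : V => (⟨x * v * x⁻¹, (hx v).1 v.2⟩ : V)) ⟨?_, ?_⟩
    (fun w : V => sg k x * sg k (w : G)) (fun w : V => sg k (w : G) * sg k x) ?_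
  · intro v w h
    have h1 := congrArg Subtype.val h
    simpa using h1
  · intro v
    refine ⟨⟨x⁻¹ * v * x, (hx _).2 (by simpa [mul_assoc] using v.2)⟩, Subtype.ext ?_⟩
    simp [mul_assoc]
  · intro v
    rw [← map_mul, ← map_mul]
    congr 1
    simp

/-- the augmentation -/
noncomputable def aug (k : Type*) [Field k] (G : Type*) [Group G] : MonoidAlgebra k G →ₐ[k] k :=
  MonoidAlgebra.lift k k G (1 : G →* k)

theorem aug_sg (g : G) : aug k G (sg k g) = 1 := by
  unfold aug sg
  rw [MonoidAlgebra.lift_of]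
  rfl

theorem aug_apply (a : MonoidAlgebra k G) : aug k G a = a.coeff.sum (fun _ c => c) := by
  unfold aug
  rw [MonoidAlgebra.lift_apply]
  refine Finsupp.sum_congr fun g _ => ?_
  simp

theorem aug_av (V : Subgroup G) (hV : ((Nat.card V : ℕ) : k) ≠ 0) : aug k G (av k V) = 1 := by
  unfold av
  letI := Fintype.ofFinite V
  simp only [map_smul, map_sum, aug_sg]
  rw [Finset.sum_const, Finset.card_univ, ← Nat.card_eq_fintype_card, nsmul_eq_mul, mul_one,
    smul_eq_mul, inv_mul_cancel₀ hV]

/-- a `D`-fixed element with non-zero augmentation has non-zero Brauer image -/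
theorem exists_of_aug {D : Subgroup G} (hD : IsPGroup p D) {a : MonoidAlgebra k G}
    (ha : ∀ x ∈ D, MonoidAlgebra.single x 1 * a = a * MonoidAlgebra.single x 1)
    (h0 : aug k G a ≠ 0) : ∃ x, (∀ y ∈ D, y * x = x * y) ∧ a.coeff x ≠ 0 := by
  classical
  by_contra hcon
  push Not at hcon
  apply h0
  have haF : a ∈ Fix (cj k G) D := mem_Fix_cj_iff.2 ha
  have _ := Fintype.ofFinite G
  let α : D →* Equiv.Perm G :=
    { toFun := fun d => (MulAut.conj (d : G)).toEquiv
      map_one' := by ext x; simp
      map_mul' := fun d d' => by ext x; simp [mul_assoc] }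
  rw [aug_apply, Finsupp.sum_fintype _ _ (fun _ => rfl),
    H768.Gd.sum_fixed hD α (fun x => a.coeff x) ?_
      (fun x => x ∈ Subgroup.centralizer (D : Set G)) ?_]
  · refine Finset.sum_eq_zero fun x _ => ?_
    split_ifs with hx
    · exact hcon x fun y hy => Subgroup.mem_centralizer_iff.1 hx y hy
    · rfl
  · intro d x
    exact H768.Gd.coeff_conj haF d.2 x
  · intro x
    rw [H768.Gd.mem_cent]
    exact ⟨fun h v => h v v.2, fun h d hd => h ⟨d, hd⟩⟩

/-- the corner at `b e` has dimension at most the number of double cosets -/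
theorem finrank_le_dc (V : Subgroup G) {b : MonoidAlgebra k G} (hb : ∀ z, z * b = b * z)
    (hi : IsIdempotentElem (b * av k V)) :
    Module.finrank k hi.Corner ≤ Nat.card (DoubleCoset.Quotient (V : Set G) (V : Set G)) := by
  classical
  have hq : ∀ g h : G, (DoubleCoset.setoid (V : Set G) (V : Set G)) g h →
      mkC k hi (sg k g) = mkC k hi (sg k h) := by
    intro g h hgh
    obtain ⟨v, hv, w, hw, rfl⟩ := DoubleCoset.rel_iff.1 hgh
    refine corner_ext ?_
    rw [mkC_val, mkC_val, map_mul, map_mul]
    have e1 : b * av k V * (sg k v * sg k g * sg k w) =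
        b * (av k V * sg k v) * sg k g * sg k w := by simp only [mul_assoc]
    have e2 : b * (av k V * sg k v) * sg k g * sg k w * (b * av k V) =
        b * (av k V * sg k v) * sg k g * (b * (sg k w * av k V)) := by
      rw [mul_assoc _ (sg k w), ← mul_assoc (sg k w) b, hb (sg k w), mul_assoc b (sg k w)]
    rw [e1, e2, av_mul_sg V hv, sg_mul_av V hw]
  let f : DoubleCoset.Quotient (V : Set G) (V : Set G) → hi.Corner :=
    Quotient.lift (fun g => mkC k hi (sg k g)) hq
  haveI : Finite (DoubleCoset.Quotient (V : Set G) (V : Set G)) := Quotient.finite _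
  haveI := Fintype.ofFinite (DoubleCoset.Quotient (V : Set G) (V : Set G))
  have hspan : Submodule.span k (Set.range f) = ⊤ := by
    rw [eq_top_iff]
    intro x _
    rw [← mkC_incC (O := k) hi x]
    have hy : ∀ y : MonoidAlgebra k G, mkC k hi y ∈ Submodule.span k (Set.range f) := by
      intro y
      induction y using MonoidAlgebra.induction_linear with
      | zero => rw [map_zero]; exact zero_mem _
      | add a c ha hc => rw [map_add]; exact add_mem ha hc
      | single g c =>
        have : MonoidAlgebra.single g c = c • sg k g := by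
          rw [sg_apply, MonoidAlgebra.smul_single, smul_eq_mul, mul_one]
        rw [this, map_smul]
        exact Submodule.smul_mem _ _ (Submodule.subset_span ⟨Quotient.mk _ g, rfl⟩)
    exact hy _
  have h1 := finrank_range_le_card (R := k) f
  rw [Set.finrank, hspan, finrank_top, ← Nat.card_eq_fintype_card] at h1
  exact h1

theorem smallCorner_of_dc [IsAlgClosed k] {G : Type} [Group G] [Finite G] {n : ℕ}
    {b : MonoidAlgebra k G} (hb : IsBlockR b) {D : Subgroup G} (hD : IsPGroup p D)
    (hbD : IsSummandOfInducedR b D) (hn : Nat.card D ≤ n)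
    {V : Subgroup G} (hV : ¬ p ∣ Nat.card V) (hDV : ∀ x ∈ D, ∀ v ∈ V, x * v * x⁻¹ ∈ V)
    (hdc : Nat.card (DoubleCoset.Quotient (V : Set G) (V : Set G)) ≤ n)
    (hpr : (b.coeff.sum fun _ c => c) ≠ 0) : SmallCorner n b := by
  have hV' : ((Nat.card V : ℕ) : k) ≠ 0 := fun h => hV ((CharP.cast_eq_zero_iff k p _).1 h)
  have hbc : ∀ z : MonoidAlgebra k G, z * b = b * z :=
    Subalgebra.mem_center_iff.mp hb.central
  have hbi : IsIdempotentElem b := (isBlock_iff.mp (I.isBlockR_iff.mp hb)).idem
  have he := av_idem (k := k) V hV'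
  have hi : IsIdempotentElem (b * av k V) := by
    change b * av k V * (b * av k V) = b * av k V
    rw [mul_assoc, ← mul_assoc (av k V) b, hbc, mul_assoc b (av k V), he.eq, ← mul_assoc, hbi.eq]
  have hfix : ∀ x ∈ D, MonoidAlgebra.single x 1 * (b * av k V) =
      b * av k V * MonoidAlgebra.single x 1 := by
    intro x hx
    have h1 : sg k x * av k V = av k V * sg k x := by
      refine av_conj V fun v => ⟨hDV x hx v, fun h => ?_⟩
      have := hDV x⁻¹ (inv_mem hx) _ h
      simpa [mul_assoc] using this
    rw [← sg_apply, ← mul_assoc, hbc, mul_assoc, h1, mul_assoc]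
  refine smallCorner_of_source hb hD hbD hn hi hfix ?_ ?_ ((finrank_le_dc V hbc hi).trans hdc)
  · rw [← mul_assoc, hbi.eq]
  · refine exists_of_aug hD hfix ?_
    rw [map_mul, aug_av V hV', mul_one, aug_apply]
    exact hpr

end Vale.Agent.P180.R2.H259
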