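import Vale.Agent.P180.R2.H259.Base2

set_option linter.all false

namespace Vale.Agent.P180.R2.H259

open Vale.Agent.P180 Vale.Agent.P180.I IsLocalRing

universe u v

section Prim

variable {k : Type*} [Field k] {A : Type*} [Ring A] [Algebra k A]

theorem exists_isPrimIn' [FiniteDimensional k A] (S : Subalgebra k A)
    (hS : ∀ x ∈ S, ∀ y ∈ S, x * y = y * x) (Q : A → Prop) (h1 : Q 1) (h0 : ¬ Q 0)
    (hQ : ∀ f c, Q f → Q c ∨ Q (f - c)) : ∃ e, IsPrimIn S e ∧ Q e := by
  classical
  let P : ℕ → Prop := fun d => ∃ f ∈ S, IsIdempotentElem f ∧ Q f ∧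
    Module.finrank k (LinearMap.range (LinearMap.mulLeft k f)) = d
  have hP : ∃ d, P d := ⟨_, 1, S.one_mem, IsIdempotentElem.one, h1, rfl⟩
  obtain ⟨f, hfS, hf, hbf, hfd⟩ := Nat.find_spec hP
  refine ⟨f, ⟨hfS, hf, ?_, ?_⟩, hbf⟩
  · rintro rfl
    exact h0 hbf
  · intro c hc hcc hcf
    by_contra hcon
    push Not at hcon
    have hfc : f * c = c := by rw [hS f hfS c hc, hcf]
    have hlt : ∀ g ∈ S, IsIdempotentElem g → f * g = g → g ≠ f →
        Module.finrank k (LinearMap.range (LinearMap.mulLeft k g)) < Nat.find hP := by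
      intro g hg hgg hfg hne
      rw [← hfd]
      apply Submodule.finrank_lt_finrank_of_lt
      refine lt_of_le_of_ne ?_ ?_
      · rintro _ ⟨y, rfl⟩
        refine ⟨g * y, ?_⟩
        simp only [LinearMap.mulLeft_apply]
        rw [← mul_assoc, hfg]
      · intro heq
        apply hne
        have : f ∈ LinearMap.range (LinearMap.mulLeft k g) := by
          rw [heq]; exact ⟨1, by simp⟩
        obtain ⟨y, hy⟩ := this
        simp only [LinearMap.mulLeft_apply] at hy
        have h1 : g * f = f := by rw [← hy, ← mul_assoc, hgg.eq]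
        rw [← hfg, hS f hfS g hg, h1]
    rcases hQ f c hbf with h2 | h2
    · exact Nat.find_min hP (hlt c hc hcc hfc hcon.2) ⟨c, hc, hcc, h2, rfl⟩
    · have hg : IsIdempotentElem (f - c) := by
        change (f - c) * (f - c) = f - c
        rw [sub_mul, mul_sub, mul_sub, hf.eq, hfc, hcf, hcc.eq, sub_self, sub_zero]
      have hg2 : f * (f - c) = f - c := by rw [mul_sub, hf.eq, hfc]
      have hg3 : f - c ≠ f := by
        intro h
        apply hcon.1
        have := sub_eq_self.mp h
        exact this
      have h1 := hlt (f - c) (S.sub_mem hfS hc) hg hg2 hg3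
      exact Nat.find_min hP h1 ⟨f - c, S.sub_mem hfS hc, hg, h2, rfl⟩

theorem exists_scal [IsAlgClosed k] [FiniteDimensional k A] (S : Subalgebra k A)
    (hS : ∀ x ∈ S, ∀ y ∈ S, x * y = y * x) {e : A} (he : IsPrimIn S e) {z : A} (hz : z ∈ S) :
    ∃ c : k, IsNilpotent (z * e - c • e) := by
  let V : Submodule k A := LinearMap.range (LinearMap.mulLeft k e)
  have hV : ∀ v ∈ V, LinearMap.mulLeft k z v ∈ V := by
    rintro _ ⟨u, rfl⟩
    refine ⟨z * u, ?_⟩
    simp only [LinearMap.mulLeft_apply]
    rw [← mul_assoc, ← mul_assoc, hS z hz e he.mem]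
  have : Nontrivial V := by
    refine ⟨⟨⟨e, 1, by simp⟩, 0, ?_⟩⟩
    intro h
    exact he.ne_zero (congrArg Subtype.val h)
  obtain ⟨c, hc⟩ := Module.End.exists_eigenvalue ((LinearMap.mulLeft k z).restrict hV)
  obtain ⟨v, hv⟩ := hc.exists_hasEigenvector
  refine ⟨c, ?_⟩
  have hx : z * e - c • e ∈ S := S.sub_mem (S.mul_mem hz he.mem) (S.smul_mem he.mem c)
  have hxe : (z * e - c • e) * e = z * e - c • e := by
    rw [sub_mul, mul_assoc, he.idem.eq, smul_mul_assoc, he.idem.eq]
  rcases he.dichotomy hS hx hxe with h | ⟨y, hyS, -, hy⟩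
  · exact h
  · exfalso
    have h1 := hv.apply_eq_smul
    have h2 : z * (v : A) = c • (v : A) := congrArg Subtype.val h1
    obtain ⟨u, hu⟩ := v.2
    simp only [LinearMap.mulLeft_apply] at hu
    have hev : e * (v : A) = v := by rw [← hu, ← mul_assoc, he.idem.eq]
    have h3 : (v : A) = 0 := by
      rw [← hev, ← hy, hS _ hx y hyS, mul_assoc, sub_mul, mul_assoc, hev, h2, smul_mul_assoc, hev,
        sub_self, mul_zero]
    exact hv.2 (Subtype.ext h3)

end Prim

section Blk

variable {κ k : Type*} [Field κ] [IsAlgClosed κ] [Field k] (j : κ →+* k) {G : Type} [Group G]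
  [Finite G]

theorem mp_central {S T : Type*} [CommRing S] [CommRing T] (j : S →+* T) {a : MonoidAlgebra S G}
    (ha : ∀ x, x * a = a * x) (x : MonoidAlgebra T G) : x * mp j a = mp j a * x := by
  induction x using MonoidAlgebra.induction_linear with
  | zero => simp
  | add a b h4 h5 => rw [add_mul, mul_add, h4, h5]
  | single x c =>
    have h6 : (MonoidAlgebra.single x c : MonoidAlgebra T G) = c • mp j (sg S x) := by
      rw [mp_sg, sg_apply]; simp
    rw [h6, smul_mul_assoc, mul_smul_comm, ← map_mul, ← map_mul, ha]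

/-- a central element over the large field is a combination of central elements over the small
one -/
theorem central_decomp {c : MonoidAlgebra k G} (hc : ∀ x, x * c = c * x) :
    ∃ (n : ℕ) (a : Fin n → k) (z : Fin n → MonoidAlgebra κ G), (∀ t x, x * z t = z t * x) ∧
      c = ∑ t, a t • mp j (z t) := by
  classical
  letI := j.toAlgebra
  have := Fintype.ofFinite G
  let W : Submodule κ k := Submodule.span κ (Set.range fun x : G => c.coeff x)
  have : FiniteDimensional κ W := FiniteDimensional.span_of_finite κ (Set.finite_range _)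
  let B := Module.finBasis κ W
  have hm : ∀ x, c.coeff x ∈ W := fun x => Submodule.subset_span ⟨x, rfl⟩
  let z : Fin (Module.finrank κ W) → MonoidAlgebra κ G := fun t =>
    MonoidAlgebra.ofCoeff (Finsupp.equivFunOnFinite.symm fun x => B.repr ⟨c.coeff x, hm x⟩ t)
  have hz : ∀ t x, (z t).coeff x = B.repr ⟨c.coeff x, hm x⟩ t := fun t x => rfl
  have hconj : ∀ g x, c.coeff (g⁻¹ * x * g) = c.coeff x := by
    intro g x
    have h1 : cj k G g c = c := by
      rw [cj_eq, hc, mul_assoc, MonoidAlgebra.single_mul_single, mul_inv_cancel, one_mul,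
        ← MonoidAlgebra.one_def, mul_one]
    rw [← cj_coeff, h1]
  refine ⟨_, fun t => (B t : k), z, ?_, ?_⟩
  · intro t x
    have h2 : z t ∈ Subalgebra.center κ (MonoidAlgebra κ G) := by
      rw [mem_center_iff_Fix_top]
      intro g _
      apply MonoidAlgebra.coeff_injective
      ext x
      rw [cj_coeff, hz, hz]
      congr 2
      exact Subtype.ext (hconj g x)
    exact Subalgebra.mem_center_iff.1 h2 x
  · apply MonoidAlgebra.coeff_injective
    ext x
    have h3 : (∑ t, (B t : k) • mp j (z t) : MonoidAlgebra k G).coeff x =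
        ∑ t, ((B t : k) • mp j (z t) : MonoidAlgebra k G).coeff x := by
      have := map_sum (MonoidAlgebra.coeffLinearEquiv (R := k) (S := k) (M := G))
        (fun t => (B t : k) • mp j (z t)) Finset.univ
      have h2 := congrArg (fun f => f x) this
      simpa using h2
    rw [h3]
    have h4 := congrArg Subtype.val (B.sum_repr ⟨c.coeff x, hm x⟩)
    simp only [Submodule.coe_sum, Submodule.coe_smul] at h4
    rw [← h4]
    refine Finset.sum_congr rfl fun t _ => ?_
    rw [MonoidAlgebra.coeff_smul, Finsupp.smul_apply, mp_coeff, hz, smul_eq_mul, mul_comm]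
    rfl

theorem mp_block {b : MonoidAlgebra κ G} (hb : IsBlock b) : IsBlock (mp j b) := by
  have hinj := mp_inj j (G := G) j.injective
  have hbc : ∀ x, x * b = b * x := Subalgebra.mem_center_iff.mp hb.central
  have hbc' := mp_central j hbc
  have hbb : mp j b * mp j b = mp j b := by rw [← map_mul, hb.idem.eq]
  have hb0 : mp j b ≠ 0 := fun h => hb.ne_zero (hinj (by rw [h, map_zero]))
  refine ⟨Subalgebra.mem_center_iff.mpr hbc', hbb, hb0, ?_⟩
  intro c hc hcc hcb
  have hcc' : c * c = c := hcc
  have hce := Subalgebra.mem_center_iff.mp hc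
  obtain ⟨n, a, z, hz, hcz⟩ := central_decomp j hce
  have hprim : IsPrimIn (Subalgebra.center κ (MonoidAlgebra κ G)) b :=
    ⟨hb.central, hb.idem, hb.ne_zero, hb.primitive⟩
  have hcomm : ∀ x ∈ Subalgebra.center κ (MonoidAlgebra κ G),
      ∀ y ∈ Subalgebra.center κ (MonoidAlgebra κ G), x * y = y * x := by
    intro x hx y hy
    exact Subalgebra.mem_center_iff.mp hy x
  have : FiniteDimensional κ (MonoidAlgebra κ G) :=
    Module.Finite.equiv (MonoidAlgebra.coeffLinearEquiv κ).symm
  choose l hl using fun t => exists_scal (Subalgebra.center κ (MonoidAlgebra κ G)) hcomm hprim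
    (Subalgebra.mem_center_iff.mpr (hz t))
  let ν : MonoidAlgebra k G := ∑ t, a t • mp j (z t * b - l t • b)
  have hνc : ∀ t x, x * (a t • mp j (z t * b - l t • b)) = (a t • mp j (z t * b - l t • b)) * x := by
    intro t x
    rw [mul_smul_comm, smul_mul_assoc, mp_central j (fun x => ?_)]
    have hzb : x * (z t * b) = z t * b * x := by rw [← mul_assoc, hz, mul_assoc, hbc, mul_assoc]
    rw [mul_sub, sub_mul, hzb, mul_smul_comm, smul_mul_assoc, hbc x]
  have hν : IsNilpotent ν := by
    have key : ∀ s : Finset (Fin n), IsNilpotent (∑ t ∈ s, a t • mp j (z t * b - l t • b)) := by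
      intro s
      classical
      induction s using Finset.induction_on with
      | empty => simp
      | insert t s ht ih =>
        rw [Finset.sum_insert ht]
        refine Commute.isNilpotent_add ?_ ?_ ih
        · exact (hνc t _).symm
        · obtain ⟨m, hm⟩ := hl t
          refine ⟨m, ?_⟩
          rw [smul_pow, ← map_pow, hm, map_zero, smul_zero]
    exact key _
  have hs : c = (∑ t, a t * j (l t)) • mp j b + ν := by
    have h1 : c = ∑ t, a t • mp j (z t * b) := by
      conv_lhs => rw [← hcb, hcz, Finset.sum_mul]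
      refine Finset.sum_congr rfl fun t _ => ?_
      rw [smul_mul_assoc, ← map_mul]
    rw [h1, Finset.sum_smul, ← Finset.sum_add_distrib]
    refine Finset.sum_congr rfl fun t _ => ?_
    rw [map_sub, mp_smul, smul_sub, smul_smul]
    abel
  set s : k := ∑ t, a t * j (l t) with hsdef
  have hνb : ν * mp j b = ν := by
    have : ν = c - s • mp j b := by rw [hs]; abel
    rw [this, sub_mul, hcb, smul_mul_assoc, hbb]
  have hbν : mp j b * ν = ν := by rw [← hbc', hνb]
  have idem_nil : ∀ w : MonoidAlgebra k G, w * w = w → IsNilpotent w → w = 0 := by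
    intro w hw hn
    obtain ⟨m, hm⟩ := hn
    rcases m with _ | m
    · rw [pow_zero] at hm
      rw [← one_mul w, hm, zero_mul]
    · rwa [IsIdempotentElem.pow_succ_eq m hw] at hm
  have hq : (s * s - s) • mp j b = ν * (1 - (2 * s) • 1 - ν) := by
    have h1 := hcc'
    rw [hs] at h1
    have h2 : (s • mp j b + ν) * (s • mp j b + ν) = (s * s) • mp j b + (2 * s) • ν + ν * ν := by
      have a1 : s • mp j b * (s • mp j b) = (s * s) • mp j b := by
        rw [smul_mul_smul_comm, hbb]
      have a2 : s • mp j b * ν = s • ν := by rw [smul_mul_assoc, hbν]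
      have a3 : ν * (s • mp j b) = s • ν := by rw [mul_smul_comm, hνb]
      rw [add_mul, mul_add, mul_add, a1, a2, a3, two_mul, add_smul]; abel
    rw [h2] at h1
    rw [mul_sub, mul_sub, mul_one, mul_smul_comm, mul_one, sub_smul]
    have h3 : (s * s) • mp j b = s • mp j b + ν - (2 * s) • ν - ν * ν := by
      rw [← h1]; abel
    rw [h3]; abel
  have hqn : IsNilpotent ((s * s - s) • mp j b) := by
    rw [hq]
    refine Commute.isNilpotent_mul_right ?_ hν
    have h5 : ∀ x, x * ν = ν * x := by
      intro x
      simp only [ν, Finset.mul_sum, Finset.sum_mul, hνc]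
    exact (h5 _).symm
  have hs01 : s * s - s = 0 := by
    by_contra h
    apply hb0
    apply idem_nil _ hbb
    obtain ⟨m, hm⟩ := hqn
    refine ⟨m, ?_⟩
    rw [smul_pow] at hm
    exact (smul_eq_zero.1 hm).resolve_left (pow_ne_zero m h)
  have hs01' : s = 0 ∨ s = 1 := by
    have : s * (s - 1) = 0 := by rw [mul_sub, mul_one]; exact hs01
    rcases mul_eq_zero.1 this with h | h
    · exact Or.inl h
    · exact Or.inr (sub_eq_zero.1 h)
  rcases hs01' with h | h
  · left
    apply idem_nil c hcc
    rw [hs, h, zero_smul, zero_add]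
    exact hν
  · right
    have h1 : mp j b - c = -ν := by rw [hs, h, one_smul]; abel
    have h2 : mp j b - c = 0 := by
      apply idem_nil
      · rw [sub_mul, mul_sub, mul_sub, hbb, hce (mp j b), hcb, hcc', sub_self, sub_zero]
      · rw [h1]; exact hν.neg
    rw [sub_eq_zero] at h2
    exact h2.symm

theorem block_descend {b : MonoidAlgebra k G} (hb : IsBlock b) :
    ∃ b' : MonoidAlgebra κ G, IsBlock b' ∧ mp j b' = b := by
  have : FiniteDimensional κ (MonoidAlgebra κ G) :=
    Module.Finite.equiv (MonoidAlgebra.coeffLinearEquiv κ).symm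
  have hcomm : ∀ x ∈ Subalgebra.center κ (MonoidAlgebra κ G),
      ∀ y ∈ Subalgebra.center κ (MonoidAlgebra κ G), x * y = y * x := by
    intro x hx y hy
    exact Subalgebra.mem_center_iff.mp hy x
  obtain ⟨e, he, hbe⟩ := exists_isPrimIn' (Subalgebra.center κ (MonoidAlgebra κ G)) hcomm
    (fun f => b * mp j f ≠ 0) (by simpa using hb.ne_zero) (by simp) (by
      intro f c hf
      by_contra h
      push Not at h
      apply hf
      have h3 : f = c + (f - c) := by abel
      rw [h3, map_add, mul_add, h.1, h.2, add_zero])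
  have hbl : IsBlock e := ⟨he.mem, he.idem, he.ne_zero, he.primitive⟩
  refine ⟨e, hbl, ?_⟩
  have h1 := mp_block j hbl
  have hbc := Subalgebra.mem_center_iff.mp hb.central
  have h2 : IsIdempotentElem (b * mp j e) := by
    change b * mp j e * (b * mp j e) = b * mp j e
    rw [mul_assoc, ← mul_assoc (mp j e), hbc, mul_assoc, ← mul_assoc b b, hb.idem.eq, h1.idem.eq]
  have h3 : b * mp j e ∈ Subalgebra.center k (MonoidAlgebra k G) :=
    Subalgebra.mul_mem _ hb.central h1.central
  rcases h1.primitive _ h3 h2 (by rw [mul_assoc, h1.idem.eq]) with h4 | h4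
  · exact absurd h4 hbe
  · rcases hb.primitive _ h3 h2 (by
      rw [mul_assoc, hbc, ← mul_assoc, hb.idem.eq]) with h5 | h5
    · exact absurd h5 hbe
    · rw [← h4, h5]

end Blk

end Vale.Agent.P180.R2.H259
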