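import Vale.Agent.P180.R2.H259.Lg

set_option linter.all false

namespace Vale.Agent.P180.R2.H259

open Vale.Agent.P180 Vale.Agent.P180.I IsLocalRing

section Cpl

variable {O : Type*} [CommRing O] [IsLocalRing O] {G : Type*} [Group G] [Finite G]

theorem dv_of_mem {n : ℕ} {a : MonoidAlgebra O G}
    (h : a ∈ maximalIdeal O ^ n • (⊤ : Submodule O (MonoidAlgebra O G))) : Dv n a := by
  refine Submodule.smul_induction_on h (fun r hr c _ => ?_) (fun c d hc hd => hc.add hd)
  have := (Dv.all c).smul hr
  rwa [add_zero] at this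

theorem sum_sg [Fintype G] (a : MonoidAlgebra O G) : a = ∑ x, a.coeff x • sg O x := by
  classical
  apply MonoidAlgebra.coeff_injective
  ext y
  have h1 : (∑ x, a.coeff x • sg O x : MonoidAlgebra O G).coeff y =
      ∑ x, (a.coeff x • sg O x : MonoidAlgebra O G).coeff y := by
    have := map_sum (MonoidAlgebra.coeffLinearEquiv (R := O) (S := O) (M := G))
      (fun x => a.coeff x • sg O x) Finset.univ
    have h2 := congrArg (fun f => f y) this
    simpa using h2
  rw [h1]
  simp [sg_apply, MonoidAlgebra.coeff_single, Finsupp.single_apply]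

theorem mem_of_dv {n : ℕ} {a : MonoidAlgebra O G} (h : Dv n a) :
    a ∈ maximalIdeal O ^ n • (⊤ : Submodule O (MonoidAlgebra O G)) := by
  have := Fintype.ofFinite G
  rw [sum_sg a]
  exact Submodule.sum_mem _ fun x _ => Submodule.smul_mem_smul (h x) trivial

theorem corner_hausdorff [IsHausdorff (maximalIdeal O) O] {I : MonoidAlgebra O G}
    (hI : IsIdempotentElem I) : IsHausdorff (maximalIdeal O) hI.Corner := by
  refine ⟨fun x hx => ?_⟩
  apply corner_ext
  change x.1 = 0
  apply Dv.eq_zero
  intro n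
  have h1 := hx n
  rw [SModEq.zero] at h1
  exact dv_of_mem (map_mem (maximalIdeal O) (incC O hI) h1)

theorem mkC_sub_mem {I : MonoidAlgebra O G} (hI : IsIdempotentElem I) {n : ℕ}
    {a : MonoidAlgebra O G} (h : Dv n a) :
    mkC O hI a ∈ maximalIdeal O ^ n • (⊤ : Submodule O hI.Corner) :=
  map_mem (maximalIdeal O) (mkC O hI) (mem_of_dv h)

theorem corner_complete [IsAdicComplete (maximalIdeal O) O] {I : MonoidAlgebra O G}
    (hI : IsIdempotentElem I) : IsAdicComplete (maximalIdeal O) hI.Corner := by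
  have h0 := corner_hausdorff hI
  refine { toIsHausdorff := h0, toIsPrecomplete := ⟨fun f hf => ?_⟩ }
  obtain ⟨F, hF⟩ := exists_lim (fun n => incC O hI (f n)) (fun n => by
    have h1 := hf (Nat.le_succ n)
    rw [SModEq.comm, SModEq.sub_mem] at h1
    have h2 := map_mem (maximalIdeal O) (incC O hI) h1
    rw [map_sub] at h2
    exact dv_of_mem h2)
  refine ⟨mkC O hI F, fun n => ?_⟩
  rw [SModEq.comm, SModEq.sub_mem]
  have h3 : mkC O hI F - f n = mkC O hI (F - incC O hI (f n)) := by
    rw [map_sub, mkC_incC]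
  rw [h3]
  exact mkC_sub_mem hI (hF n)

/-- reduction of corners -/
noncomputable def rdC {I : MonoidAlgebra O G} {i : MonoidAlgebra (ResidueField O) G}
    (hI : IsIdempotentElem I) (hi : IsIdempotentElem i) (h : rd I = i) :
    hI.Corner →+* hi.Corner where
  toFun x := cornerOf hi (rd x.1) (by rw [← h, ← map_mul, corner_left])
    (by rw [← h, ← map_mul, corner_right])
  map_one' := corner_ext h
  map_mul' x y := corner_ext (map_mul rd x.1 y.1)
  map_zero' := corner_ext (map_zero rd)
  map_add' x y := corner_ext (map_add rd x.1 y.1)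

theorem rdC_val {I : MonoidAlgebra O G} {i : MonoidAlgebra (ResidueField O) G}
    (hI : IsIdempotentElem I) (hi : IsIdempotentElem i) (h : rd I = i) (x : hI.Corner) :
    (rdC hI hi h x).1 = rd x.1 := rfl

theorem rdC_smul {I : MonoidAlgebra O G} {i : MonoidAlgebra (ResidueField O) G}
    (hI : IsIdempotentElem I) (hi : IsIdempotentElem i) (h : rd I = i) (c : O) (x : hI.Corner) :
    rdC hI hi h (c • x) = residue O c • rdC hI hi h x :=
  corner_ext (rd_smul c x.1)

theorem mem_of_rdC {I : MonoidAlgebra O G} {i : MonoidAlgebra (ResidueField O) G}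
    (hI : IsIdempotentElem I) (hi : IsIdempotentElem i) (h : rd I = i) {x : hI.Corner}
    (hx : rdC hI hi h x = 0) : x ∈ maximalIdeal O • (⊤ : Submodule O hI.Corner) := by
  have h1 : rd x.1 = 0 := congrArg Subtype.val hx
  rw [rd_eq_zero_iff] at h1
  have h2 := mkC_sub_mem hI h1
  rw [pow_one] at h2
  have h3 : mkC O hI x.1 = x := mkC_incC hI x
  rwa [h3] at h2

theorem rdC_mkC {I : MonoidAlgebra O G} {i : MonoidAlgebra (ResidueField O) G}
    (hI : IsIdempotentElem I) (hi : IsIdempotentElem i) (h : rd I = i) (a : MonoidAlgebra O G) :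
    rdC hI hi h (mkC O hI a) = mkC (ResidueField O) hi (rd a) :=
  corner_ext (by
    change rd (I * a * I) = i * rd a * i
    rw [map_mul, map_mul, h])

theorem cmul_smul {I : MonoidAlgebra O G} (hI : IsIdempotentElem I) (c : O) (x y : hI.Corner) :
    x * (c • y) = c • (x * y) := corner_ext (by
  change x.1 * (c • y.1) = c • (x.1 * y.1)
  exact mul_smul_comm _ _ _)

theorem csmul_mul {I : MonoidAlgebra O G} (hI : IsIdempotentElem I) (c : O) (x y : hI.Corner) :
    (c • x) * y = c • (x * y) := corner_ext (by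
  change (c • x.1) * y.1 = c • (x.1 * y.1)
  exact smul_mul_assoc _ _ _)

variable {G' : Type*} [Group G'] [Finite G']

/-- a linear lift of an isomorphism of corners -/
theorem exists_lin {Γ : Type*} [Group Γ] {I : MonoidAlgebra O G}
    {i : MonoidAlgebra (ResidueField O) G}
    {I' : MonoidAlgebra O G'} {i' : MonoidAlgebra (ResidueField O) G'}
    (hI : IsIdempotentElem I) (hi : IsIdempotentElem i) (h : rd I = i)
    (hI' : IsIdempotentElem I') (hi' : IsIdempotentElem i') (h' : rd I' = i')
    (s : Γ →* G) (s' : Γ →* G')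
    (hc : ∀ g, ((sg O).comp s) g * I = I * ((sg O).comp s) g)
    (hc' : ∀ g, ((sg O).comp s') g * I' = I' * ((sg O).comp s') g)
    (hk : ∀ g, ((sg (ResidueField O)).comp s) g * i = i * ((sg (ResidueField O)).comp s) g)
    (hk' : ∀ g, ((sg (ResidueField O)).comp s') g * i' = i' * ((sg (ResidueField O)).comp s') g)
    (F : hi.Corner ≃ₐ[ResidueField O] hi'.Corner)
    (hF : ∀ g, F (cRho hi _ hk g) = cRho hi' _ hk' g) :
    ∃ φ : hI.Corner →ₗ[O] hI'.Corner, BiLin (cRho hI _ hc) (cRho hI' _ hc') φ ∧
      ∀ x, rdC hI' hi' h' (φ x) = F (rdC hI hi h x) := by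
  have := Fintype.ofFinite G
  let σ : G → hI'.Corner := fun ξ => mkC O hI' (lf (F (mkC (ResidueField O) hi
    (sg (ResidueField O) ξ))).1)
  let Φ : MonoidAlgebra O G →ₗ[O] hI'.Corner :=
    { toFun := fun a => ∑ ξ, a.coeff ξ • σ ξ
      map_add' := fun a b => by
        rw [← Finset.sum_add_distrib]
        exact Finset.sum_congr rfl fun ξ _ => by
          rw [MonoidAlgebra.coeff_add, Finsupp.add_apply]; exact add_smul (a.coeff ξ) (b.coeff ξ) (σ ξ)
      map_smul' := fun c a => by
        rw [RingHom.id_apply, Finset.smul_sum]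
        exact Finset.sum_congr rfl fun ξ _ => by
          rw [MonoidAlgebra.coeff_smul, Finsupp.smul_apply, smul_eq_mul]; exact mul_smul c (a.coeff ξ) (σ ξ) }
  have hΦ : ∀ a, Φ a = ∑ ξ, a.coeff ξ • σ ξ := fun a => rfl
  have hFl : ∀ g (y : hi.Corner), F (cRho hi _ hk g * y) = cRho hi' _ hk' g * F y := by
    intro g y; rw [map_mul, hF]
  have hFr : ∀ g (y : hi.Corner), F (y * cRho hi _ hk g) = F y * cRho hi' _ hk' g := by
    intro g y; rw [map_mul, hF]
  have hσl : ∀ g ξ, σ (s g * ξ) = cRho hI' _ hc' g * σ ξ := by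
    intro g ξ
    have e1 : mkC (ResidueField O) hi (sg (ResidueField O) (s g * ξ)) =
        cRho hi _ hk g * mkC (ResidueField O) hi (sg (ResidueField O) ξ) := by
      apply corner_ext
      rw [corner_mul_val, cRho_val]
      change i * sg (ResidueField O) (s g * ξ) * i = sg (ResidueField O) (s g) * i *
        (i * sg (ResidueField O) ξ * i)
      have e2 : i * sg (ResidueField O) (s g) = sg (ResidueField O) (s g) * i := (hk g).symm
      have e3 : sg (ResidueField O) (s g) * i * (i * sg (ResidueField O) ξ * i) =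
        sg (ResidueField O) (s g) * (i * i) * sg (ResidueField O) ξ * i := by
          simp only [mul_assoc]
      rw [e3, hi.eq, map_mul, ← mul_assoc, e2]
    have e4 : (F (cRho hi _ hk g * mkC (ResidueField O) hi (sg (ResidueField O) ξ))).1 =
        sg (ResidueField O) (s' g) * (F (mkC (ResidueField O) hi (sg (ResidueField O) ξ))).1 := by
      rw [hFl, corner_mul_val, cRho_val]
      change sg (ResidueField O) (s' g) * i' * _ = _
      rw [mul_assoc, corner_left]
    change mkC O hI' (lf (F (mkC (ResidueField O) hi (sg (ResidueField O) (s g * ξ)))).1) = _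
    rw [e1, e4, lf_left]
    apply corner_ext
    rw [corner_mul_val, cRho_val]
    change I' * (sg O (s' g) * _) * I' = sg O (s' g) * I' * (I' * _ * I')
    have e5 : sg O (s' g) * I' * (I' * lf (F (mkC (ResidueField O) hi
        (sg (ResidueField O) ξ))).1 * I') = sg O (s' g) * (I' * I') *
        lf (F (mkC (ResidueField O) hi (sg (ResidueField O) ξ))).1 * I' := by
      simp only [mul_assoc]
    have e6 : sg O (s' g) * I' = I' * sg O (s' g) := hc' g
    rw [e5, hI'.eq, e6]
    simp only [mul_assoc]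
  have hσr : ∀ g ξ, σ (ξ * s g) = σ ξ * cRho hI' _ hc' g := by
    intro g ξ
    have e1 : mkC (ResidueField O) hi (sg (ResidueField O) (ξ * s g)) =
        mkC (ResidueField O) hi (sg (ResidueField O) ξ) * cRho hi _ hk g := by
      apply corner_ext
      rw [corner_mul_val, cRho_val]
      change i * sg (ResidueField O) (ξ * s g) * i =
        (i * sg (ResidueField O) ξ * i) * (sg (ResidueField O) (s g) * i)
      have e2 : i * sg (ResidueField O) (s g) = sg (ResidueField O) (s g) * i := (hk g).symm
      have e3 : (i * sg (ResidueField O) ξ * i) * (sg (ResidueField O) (s g) * i) =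
        i * sg (ResidueField O) ξ * (i * sg (ResidueField O) (s g)) * i := by
          simp only [mul_assoc]
      rw [e3, e2, map_mul]
      simp only [mul_assoc, hi.eq]
    have e4 : (F (mkC (ResidueField O) hi (sg (ResidueField O) ξ) * cRho hi _ hk g)).1 =
        (F (mkC (ResidueField O) hi (sg (ResidueField O) ξ))).1 * sg (ResidueField O) (s' g) := by
      rw [hFr, corner_mul_val, cRho_val]
      change _ * (sg (ResidueField O) (s' g) * i') = _
      have e2 : i' * sg (ResidueField O) (s' g) = sg (ResidueField O) (s' g) * i' := (hk' g).symm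
      rw [← e2, ← mul_assoc, corner_right]
    change mkC O hI' (lf (F (mkC (ResidueField O) hi (sg (ResidueField O) (ξ * s g)))).1) = _
    rw [e1, e4, lf_right]
    apply corner_ext
    rw [corner_mul_val, cRho_val]
    change I' * (_ * sg O (s' g)) * I' = (I' * _ * I') * (sg O (s' g) * I')
    have e6 : sg O (s' g) * I' = I' * sg O (s' g) := hc' g
    rw [e6]
    have e5 : (I' * lf (F (mkC (ResidueField O) hi
        (sg (ResidueField O) ξ))).1 * I') * (I' * sg O (s' g)) = I' *
        lf (F (mkC (ResidueField O) hi (sg (ResidueField O) ξ))).1 * (I' * I') * sg O (s' g) := by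
      simp only [mul_assoc]
    rw [e5, hI'.eq, mul_assoc _ I', ← e6]
    simp only [mul_assoc]
  have hΦl : ∀ g a, Φ (sg O (s g) * a) = cRho hI' _ hc' g * Φ a := by
    intro g a
    rw [hΦ, hΦ, Finset.mul_sum]
    rw [← Equiv.sum_comp (Equiv.mulLeft (s g))]
    refine Finset.sum_congr rfl fun ξ _ => ?_
    rw [Equiv.coe_mulLeft, hσl, sg_apply, MonoidAlgebra.coeff_single_mul_apply, one_mul,
      inv_mul_cancel_left, cmul_smul]
  have hΦr : ∀ g a, Φ (a * sg O (s g)) = Φ a * cRho hI' _ hc' g := by
    intro g a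
    rw [hΦ, hΦ, Finset.sum_mul]
    rw [← Equiv.sum_comp (Equiv.mulRight (s g))]
    refine Finset.sum_congr rfl fun ξ _ => ?_
    rw [Equiv.coe_mulRight, hσr, sg_apply, MonoidAlgebra.coeff_mul_single_apply, mul_one,
      mul_inv_cancel_right, csmul_mul]
  refine ⟨Φ.comp (incC O hI), ⟨fun g a => ?_, fun g a => ?_⟩, fun x => ?_⟩
  · rw [LinearMap.comp_apply, LinearMap.comp_apply, ← hΦl]
    congr 1
    change sg O (s g) * I * a.1 = sg O (s g) * a.1
    rw [mul_assoc, corner_left]
  · rw [LinearMap.comp_apply, LinearMap.comp_apply, ← hΦr]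
    congr 1
    change a.1 * (sg O (s g) * I) = a.1 * sg O (s g)
    have e6 : sg O (s g) * I = I * sg O (s g) := hc g
    rw [e6, ← mul_assoc, corner_right]
  · rw [LinearMap.comp_apply, hΦ, map_sum]
    have e7 : ∀ ξ, rdC hI' hi' h' ((incC O hI x).coeff ξ • σ ξ) =
        F ((rd x.1).coeff ξ • mkC (ResidueField O) hi (sg (ResidueField O) ξ)) := by
      intro ξ
      rw [rdC_smul, map_smul, rd_coeff]
      congr 1
      change rdC hI' hi' h' (mkC O hI' _) = _
      rw [rdC_mkC, rd_lf]
      exact mkC_incC hi' _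
    rw [Finset.sum_congr rfl fun ξ _ => e7 ξ, ← map_sum]
    congr 1
    have e8 : ∑ ξ, (rd x.1).coeff ξ • mkC (ResidueField O) hi (sg (ResidueField O) ξ) =
        mkC (ResidueField O) hi (rd x.1) := by
      conv_rhs => rw [sum_sg (O := ResidueField O) (rd x.1)]
      rw [map_sum]
      simp only [map_smul]
    rw [e8]
    exact mkC_incC hi (rdC hI hi h x)

end Cpl

section Main

variable {O : Type*} [CommRing O] [IsLocalRing O] [IsAdicComplete (maximalIdeal O) O]
  {G G' : Type*} [Group G] [Finite G] [Group G'] [Finite G']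

theorem iso_lift {Γ : Type*} [Group Γ] {I : MonoidAlgebra O G}
    {i : MonoidAlgebra (ResidueField O) G}
    {I' : MonoidAlgebra O G'} {i' : MonoidAlgebra (ResidueField O) G'}
    (hI : IsIdempotentElem I) (hi : IsIdempotentElem i) (h : rd I = i)
    (hI' : IsIdempotentElem I') (hi' : IsIdempotentElem i') (h' : rd I' = i')
    (s : Γ →* G) (s' : Γ →* G')
    (hc : ∀ g, ((sg O).comp s) g * I = I * ((sg O).comp s) g)
    (hc' : ∀ g, ((sg O).comp s') g * I' = I' * ((sg O).comp s') g)
    (hk : ∀ g, ((sg (ResidueField O)).comp s) g * i = i * ((sg (ResidueField O)).comp s) g)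
    (hk' : ∀ g, ((sg (ResidueField O)).comp s') g * i' = i' * ((sg (ResidueField O)).comp s') g)
    (F : hi.Corner ≃ₐ[ResidueField O] hi'.Corner)
    (hF : ∀ g, F (cRho hi _ hk g) = cRho hi' _ hk' g)
    (hcas : Cas O (cRho hI _ hc)) :
    ∃ F' : hI.Corner ≃ₐ[O] hI'.Corner, ∀ g, F' (cRho hI _ hc g) = cRho hI' _ hc' g := by
  obtain ⟨φ, hφ, hφF⟩ := exists_lin hI hi h hI' hi' h' s s' hc hc' hk hk' F hF
  obtain ⟨ψ, hψ, hψF⟩ := exists_lin hI' hi' h' hI hi h s' s hc' hc hk' hk F.symm (by
    intro g; rw [← hF, AlgEquiv.symm_apply_apply])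
  obtain ⟨n, x, y, h1, h2⟩ := hcas
  have := corner_complete hI
  have := corner_complete hI'
  obtain ⟨F', hF', -⟩ := exists_lift (maximalIdeal O) x y (casB_of _ x y h2) h1 φ hφ
    (fun a b => by
      apply mem_of_rdC hI' hi' h'
      simp only [map_sub, map_mul, hφF, sub_self])
    (by
      apply mem_of_rdC hI' hi' h'
      rw [map_sub, hφF, map_one, map_one, map_one, sub_self])
    ψ (fun a => by
      apply mem_of_rdC hI hi h
      rw [map_sub, hψF, hφF, AlgEquiv.symm_apply_apply, sub_self])
    (fun a => by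
      apply mem_of_rdC hI' hi' h'
      rw [map_sub, hφF, hψF, AlgEquiv.apply_symm_apply, sub_self])
  exact ⟨F', hF'⟩

end Main

end Vale.Agent.P180.R2.H259
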