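import Vale.Agent.P180.R2.H259.Base

namespace Vale.Agent.P180.R2.H259

section Lim

variable {S M N : Type*} [CommRing S] [AddCommGroup M] [Module S M] [AddCommGroup N] [Module S N]
variable (I : Ideal S)

theorem eq_zero_of_mem [IsHausdorff I M] {a : M} (h : ∀ n : ℕ, a ∈ I ^ n • (⊤ : Submodule S M)) :
    a = 0 :=
  IsHausdorff.haus (I := I) inferInstance a fun n => SModEq.zero.2 (h n)

theorem eq_zero_of_mem' [IsHausdorff I M] {a : M}
    (h : ∀ n : ℕ, a ∈ I ^ (n + 1) • (⊤ : Submodule S M)) : a = 0 :=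
  eq_zero_of_mem I fun n => by
    exact Submodule.smul_mono_left (Ideal.pow_le_pow_right (Nat.le_succ n)) (h n)

theorem exists_lim' [IsPrecomplete I M] (f : ℕ → M)
    (hf : ∀ n, f (n + 1) - f n ∈ I ^ n • (⊤ : Submodule S M)) :
    ∃ L, ∀ n, L - f n ∈ I ^ n • (⊤ : Submodule S M) := by
  have h1 : ∀ m d, f (m + d) - f m ∈ I ^ m • (⊤ : Submodule S M) := by
    intro m d
    induction d with
    | zero => simp
    | succ d ih =>
      have h1 : f (m + (d + 1)) - f m = (f (m + d + 1) - f (m + d)) + (f (m + d) - f m) := by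
        rw [← add_assoc]; abel
      rw [h1]
      exact Submodule.add_mem _ (Submodule.smul_mono_left
        (Ideal.pow_le_pow_right (Nat.le_add_right _ _)) (hf (m + d))) ih
  obtain ⟨L, hL⟩ := IsPrecomplete.prec (I := I) (M := M) inferInstance (f := f) (by
    intro m n hmn
    obtain ⟨d, rfl⟩ := Nat.exists_eq_add_of_le hmn
    rw [SModEq.comm, SModEq.sub_mem]
    exact h1 m d)
  refine ⟨L, fun n => ?_⟩
  have := hL n
  rwa [SModEq.comm, SModEq.sub_mem] at this

theorem map_mem (f : M →ₗ[S] N) {n : ℕ} {a : M} (h : a ∈ I ^ n • (⊤ : Submodule S M)) :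
    f a ∈ I ^ n • (⊤ : Submodule S N) := by
  refine Submodule.smul_induction_on h (fun r hr c _ => ?_) (fun c d hc hd => ?_)
  · rw [map_smul]; exact Submodule.smul_mem_smul hr trivial
  · rw [map_add]; exact Submodule.add_mem _ hc hd

theorem sub_mem_of {f : M →ₗ[S] M} (hf : ∀ a, f a - a ∈ I • (⊤ : Submodule S M)) {n : ℕ} {a : M}
    (h : a ∈ I ^ n • (⊤ : Submodule S M)) : f a - a ∈ I ^ (n + 1) • (⊤ : Submodule S M) := by
  refine Submodule.smul_induction_on h (fun r hr c _ => ?_) (fun c d hc hd => ?_)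
  · rw [map_smul, ← smul_sub, pow_succ, Submodule.mul_smul]
    exact Submodule.smul_mem_smul hr (hf c)
  · rw [map_add, show f c + f d - (c + d) = (f c - c) + (f d - d) by abel]
    exact Submodule.add_mem _ hc hd

theorem bij_of_sub [IsAdicComplete I M] {f : M →ₗ[S] M}
    (hf : ∀ a, f a - a ∈ I • (⊤ : Submodule S M)) : Function.Bijective f := by
  constructor
  · rw [injective_iff_map_eq_zero]
    intro a ha
    apply eq_zero_of_mem I
    intro n
    induction n with
    | zero => simp
    | succ n ih =>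
      have := sub_mem_of I hf ih
      rw [ha, zero_sub] at this
      exact (Submodule.neg_mem_iff _).1 this
  · intro y
    let s : ℕ → M := fun n => Nat.rec (0 : M) (fun _ a => a + (y - f a)) n
    have hs : ∀ n, s (n + 1) = s n + (y - f (s n)) := fun n => rfl
    have h1 : ∀ n, y - f (s n) ∈ I ^ n • (⊤ : Submodule S M) := by
      intro n
      induction n with
      | zero => simp
      | succ n ih =>
        have := sub_mem_of I hf ih
        rw [hs, map_add]
        have e : y - (f (s n) + f (y - f (s n))) = -(f (y - f (s n)) - (y - f (s n))) := by abel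
        rw [e]
        exact Submodule.neg_mem _ this
    obtain ⟨L, hL⟩ := exists_lim' I s (fun n => by rw [hs]; simpa using h1 n)
    refine ⟨L, ?_⟩
    rw [← sub_eq_zero]
    apply eq_zero_of_mem I
    intro n
    have e : f L - y = f (L - s n) - (y - f (s n)) := by rw [map_sub]; abel
    rw [e]
    exact Submodule.sub_mem _ (map_mem I f (hL n)) (h1 n)

end Lim

section Lift

variable {S A A' Γ : Type*} [CommRing S] [Ring A] [Algebra S A] [Ring A'] [Algebra S A'] [Group Γ]
variable (I : Ideal S) [IsAdicComplete I A] [IsAdicComplete I A']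

theorem exists_lift {n : ℕ} {ρ : Γ →* A} {ρ' : Γ →* A'} (x y : Fin n → A)
    (hb : CasB S A' ρ x y) (h1 : ∑ j, x j * y j = 1) (φ : A →ₗ[S] A') (hφ : BiLin ρ ρ' φ)
    (hm : ∀ a b, φ (a * b) - φ a * φ b ∈ I • (⊤ : Submodule S A'))
    (hφ1 : φ 1 - 1 ∈ I • (⊤ : Submodule S A'))
    (ψ : A' →ₗ[S] A) (hψ : ∀ a, ψ (φ a) - a ∈ I • (⊤ : Submodule S A))
    (hψ' : ∀ a, φ (ψ a) - a ∈ I • (⊤ : Submodule S A')) :
    ∃ F : A ≃ₐ[S] A', (∀ g, F (ρ g) = ρ' g) ∧ ∀ a, F a - φ a ∈ I • (⊤ : Submodule S A') := by
  classical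
  have hsp := newt_spec I x y hb h1 φ hφ hm hφ1
  have hlim : ∀ a, ∃ L, ∀ m, L - newt x y φ m a ∈ I ^ m • (⊤ : Submodule S A') := by
    intro a
    apply exists_lim' I
    intro m
    exact smul_top_mono I (Nat.le_succ m) ((hsp m).2.2.1 a)
  choose L hL using hlim
  have key : ∀ b, (∀ m, b ∈ I ^ m • (⊤ : Submodule S A')) → b = 0 := fun b hb => eq_zero_of_mem I hb
  have hadd : ∀ a b, L (a + b) = L a + L b := by
    intro a b
    rw [← sub_eq_zero]
    refine key _ fun m => ?_
    have e : L (a + b) - (L a + L b) = (L (a + b) - newt x y φ m (a + b)) -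
        (L a - newt x y φ m a) - (L b - newt x y φ m b) := by rw [map_add]; abel
    rw [e]
    exact Submodule.sub_mem _ (Submodule.sub_mem _ (hL _ m) (hL _ m)) (hL _ m)
  have hsmul : ∀ (c : S) a, L (c • a) = c • L a := by
    intro c a
    rw [← sub_eq_zero]
    refine key _ fun m => ?_
    have e : L (c • a) - c • L a = (L (c • a) - newt x y φ m (c • a)) -
        c • (L a - newt x y φ m a) := by rw [map_smul, smul_sub]; abel
    rw [e]
    exact Submodule.sub_mem _ (hL _ m) (Submodule.smul_mem _ _ (hL _ m))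
  have hmul : ∀ a b, L (a * b) = L a * L b := by
    intro a b
    rw [← sub_eq_zero]
    refine key _ fun m => ?_
    have e : L (a * b) - L a * L b = (L (a * b) - newt x y φ m (a * b)) + dfc (newt x y φ m) a b
        - (L a - newt x y φ m a) * L b - newt x y φ m a * (L b - newt x y φ m b) := by
      rw [dfc_apply, sub_mul, mul_sub]; abel
    rw [e]
    refine Submodule.sub_mem _ (Submodule.sub_mem _ (Submodule.add_mem _ (hL _ m) ?_) ?_) ?_
    · exact smul_top_mono I (Nat.le_succ m) ((hsp m).2.1 a b)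
    · have h2 : L b ∈ I ^ 0 • (⊤ : Submodule S A') := by simp
      simpa using mul_mem_smul I (hL a m) h2
    · have h2 : newt x y φ m a ∈ I ^ 0 • (⊤ : Submodule S A') := by simp
      simpa using mul_mem_smul I h2 (hL b m)
  have hl : ∀ g a, L (ρ g * a) = ρ' g * L a := by
    intro g a
    rw [← sub_eq_zero]
    refine key _ fun m => ?_
    have e : L (ρ g * a) - ρ' g * L a = (L (ρ g * a) - newt x y φ m (ρ g * a)) -
        ρ' g * (L a - newt x y φ m a) := by
      rw [(hsp m).1.1 g a, mul_sub]; abel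
    rw [e]
    refine Submodule.sub_mem _ (hL _ m) ?_
    have h2 : ρ' g ∈ I ^ 0 • (⊤ : Submodule S A') := by simp
    simpa using mul_mem_smul I h2 (hL a m)
  let Lm : A →ₗ[S] A' := { toFun := L, map_add' := hadd, map_smul' := hsmul }
  have hLφ : ∀ a, L a - φ a ∈ I • (⊤ : Submodule S A') := by
    intro a
    have e : L a - φ a = (L a - newt x y φ 1 a) + (newt x y φ 1 a - newt x y φ 0 a) := by
      simp only [newt]; abel
    rw [e]
    refine Submodule.add_mem _ (by simpa using hL a 1) (by simpa using (hsp 0).2.2.1 a)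
  have hbij : Function.Bijective Lm := by
    constructor
    · have h3 : Function.Bijective (ψ.comp Lm) := bij_of_sub I (fun a => by
        have e : (ψ.comp Lm) a - a = ψ (L a - φ a) + (ψ (φ a) - a) := by
          rw [map_sub]; simp only [LinearMap.comp_apply]; change ψ (L a) - a = _; abel
        rw [e]
        refine Submodule.add_mem _ ?_ (hψ a)
        have h5 := map_mem I ψ (n := 1) (a := L a - φ a) (by rw [pow_one]; exact hLφ a)
        rwa [pow_one] at h5)
      exact Function.Injective.of_comp h3.1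
    · have h3 : Function.Bijective (Lm.comp ψ) := bij_of_sub I (fun a => by
        have e : (Lm.comp ψ) a - a = (L (ψ a) - φ (ψ a)) + (φ (ψ a) - a) := by
          simp only [LinearMap.comp_apply]; change L (ψ a) - a = _; abel
        rw [e]
        exact Submodule.add_mem _ (hLφ _) (hψ' a))
      exact Function.Surjective.of_comp h3.2
  have hone : L 1 = 1 := by
    obtain ⟨u, hu⟩ := hbij.2 1
    have hu' : L u = 1 := hu
    have := hmul u 1
    rw [mul_one, hu', one_mul] at this
    exact this.symm
  refine ⟨AlgEquiv.ofBijective (AlgHom.ofLinearMap Lm hone hmul) hbij, fun g => ?_, hLφ⟩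
  change L (ρ g) = ρ' g
  have := hl g 1
  rwa [mul_one, hone, mul_one] at this

end Lift

end Vale.Agent.P180.R2.H259
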