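import Vale.Agent.P180.R2.H259.Cor
import Vale.Agent.P180.Int.Red

set_option linter.all false

namespace Vale.Agent.P180.R2.H259

open Vale.Agent.P180 Vale.Agent.P180.I IsLocalRing

section Sec

variable {O : Type*} [CommRing O] [IsLocalRing O] {G : Type*} [Group G] [Finite G]

/-- set section of the residue map -/
noncomputable def sc (x : ResidueField O) : O := Function.surjInv residue_surjective x

theorem residue_sc (x : ResidueField O) : residue O (sc x) = x :=
  Function.surjInv_eq residue_surjective x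

/-- coefficientwise lifting -/
noncomputable def lf (a : MonoidAlgebra (ResidueField O) G) : MonoidAlgebra O G :=
  MonoidAlgebra.ofCoeff (Finsupp.equivFunOnFinite.symm fun x => sc (a.coeff x))

theorem lf_coeff (a : MonoidAlgebra (ResidueField O) G) (x : G) :
    (lf a).coeff x = sc (a.coeff x) := rfl

theorem rd_lf (a : MonoidAlgebra (ResidueField O) G) : rd (lf a) = a := by
  apply MonoidAlgebra.coeff_injective
  ext x
  rw [rd_coeff, lf_coeff, residue_sc]

theorem rd_sg (g : G) : rd (sg O g) = sg (ResidueField O) g := by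
  rw [sg_apply, rd_single, map_one, sg_apply]

theorem lf_left (g : G) (a : MonoidAlgebra (ResidueField O) G) :
    lf (sg (ResidueField O) g * a) = sg O g * lf a := by
  apply MonoidAlgebra.coeff_injective
  ext x
  rw [lf_coeff, sg_apply, sg_apply, MonoidAlgebra.coeff_single_mul_apply,
    MonoidAlgebra.coeff_single_mul_apply, lf_coeff, one_mul, one_mul]

theorem lf_right (g : G) (a : MonoidAlgebra (ResidueField O) G) :
    lf (a * sg (ResidueField O) g) = lf a * sg O g := by
  apply MonoidAlgebra.coeff_injective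
  ext x
  rw [lf_coeff, sg_apply, sg_apply, MonoidAlgebra.coeff_mul_single_apply,
    MonoidAlgebra.coeff_mul_single_apply, lf_coeff, mul_one, mul_one]

/-- the centraliser of a subgroup -/
def cen (O : Type*) [CommRing O] {G : Type*} [Group G] (R : Subgroup G) :
    Subring (MonoidAlgebra O G) where
  carrier := {a | ∀ r ∈ R, sg O r * a = a * sg O r}
  mul_mem' := by
    intro a b ha hb r hr
    rw [← mul_assoc, ha r hr, mul_assoc, hb r hr, mul_assoc]
  one_mem' := by intro r hr; rw [mul_one, one_mul]
  add_mem' := by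
    intro a b ha hb r hr
    rw [mul_add, add_mul, ha r hr, hb r hr]
  zero_mem' := by intro r hr; rw [mul_zero, zero_mul]
  neg_mem' := by
    intro a ha r hr
    rw [mul_neg, neg_mul, ha r hr]

theorem mem_cen {R : Subgroup G} {a : MonoidAlgebra O G} :
    a ∈ cen O R ↔ ∀ r ∈ R, sg O r * a = a * sg O r := Iff.rfl

theorem lf_mem_cen {R : Subgroup G} {a : MonoidAlgebra (ResidueField O) G}
    (ha : a ∈ cen (ResidueField O) R) : lf a ∈ cen O R := by
  intro r hr
  rw [← lf_left, ha r hr, lf_right]

theorem rd_mem_cen {R : Subgroup G} {a : MonoidAlgebra O G}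
    (ha : a ∈ cen O R) : rd a ∈ cen (ResidueField O) R := by
  intro r hr
  rw [← rd_sg, ← map_mul, ha r hr, map_mul]

variable [IsAdicComplete (maximalIdeal O) O]

theorem exists_idem_cen {R : Subgroup G} {i : MonoidAlgebra (ResidueField O) G} (hi : i * i = i)
    (hic : i ∈ cen (ResidueField O) R) : ∃ I ∈ cen O R, I * I = I ∧ rd I = i := by
  refine exists_idem (cen O R) ?_ hi (lf_mem_cen hic) (rd_lf i)
  intro a ha r hr
  rw [← sub_eq_zero]
  apply Dv.eq_zero
  intro n
  obtain ⟨b, hb, hab⟩ := ha n
  have : sg O r * a - a * sg O r = sg O r * (a - b) - (a - b) * sg O r := by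
    rw [mul_sub, sub_mul, hb r hr]; abel
  rw [this]
  exact (hab.mul_left _).sub (hab.mul_right _)

/-- lifting the trace condition -/
theorem gen_lift {R : Subgroup G} {B I : MonoidAlgebra O G} (hB : B * B = B)
    (hBc : ∀ a, B * a = a * B) (hI : I ∈ cen O R) (hg : Gen R (rd B) (rd I)) : Gen R B I := by
  obtain ⟨n, u, v, hu, hv, m, q, hq, hb⟩ := hg
  let C : MonoidAlgebra O G := ∑ j, ∑ l, sg O (q j) * (lf (u l) * I * lf (v l)) * sg O (q j)⁻¹
  have hC : rd C = rd B := by
    conv_rhs => rw [hb]
    simp only [C, map_sum, map_mul, rd_lf, rd_sg]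
  have hCc : ∀ h : G, sg O h * C = C * sg O h := by
    intro h
    let e : Fin m ≃ G ⧸ R := Equiv.ofBijective _ hq
    let τ : Fin m ≃ Fin m := (e.trans (MulAction.toPerm h)).trans e.symm
    have hτ : ∀ j, (q (τ j) : G ⧸ R) = ((h * q j : G) : G ⧸ R) := by
      intro j
      change e (τ j) = _
      simp only [τ, Equiv.trans_apply, Equiv.apply_symm_apply]
      rfl
    have hr : ∀ j, ∃ r ∈ R, q (τ j) = h * q j * r := by
      intro j
      exact ⟨_, QuotientGroup.eq.1 (hτ j).symm, by group⟩
    have h1 : C = ∑ j, ∑ l, sg O (q (τ j)) * (lf (u l) * I * lf (v l)) * sg O (q (τ j))⁻¹ :=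
      (Equiv.sum_comp τ (fun j => ∑ l, sg O (q j) * (lf (u l) * I * lf (v l)) * sg O (q j)⁻¹)).symm
    conv_rhs => rw [h1]
    simp only [C, Finset.mul_sum, Finset.sum_mul]
    refine Finset.sum_congr rfl fun j _ => Finset.sum_congr rfl fun l _ => ?_
    obtain ⟨r, hr, hr'⟩ := hr j
    have hw : lf (u l) * I * lf (v l) ∈ cen O R :=
      (cen O R).mul_mem ((cen O R).mul_mem (lf_mem_cen (hu l)) hI) (lf_mem_cen (hv l))
    set w := lf (u l) * I * lf (v l) with hwdef
    rw [hr', mul_inv_rev, mul_inv_rev]
    simp only [map_mul]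
    have h2 : sg O h * sg O (q j) * sg O r * w * (sg O r⁻¹ * (sg O (q j)⁻¹ * sg O h⁻¹)) * sg O h =
        sg O h * sg O (q j) * (sg O r * w * sg O r⁻¹) * sg O (q j)⁻¹ * (sg O h⁻¹ * sg O h) := by
      simp only [mul_assoc]
    rw [h2, hw r hr, sg_inv_mul, mul_assoc w, sg_mul_inv, mul_one, mul_one]
    simp only [mul_assoc]
  have hCc' : ∀ a, C * a = a * C := by
    intro a
    induction a using MonoidAlgebra.induction_linear with
    | zero => simp
    | add a b ha hb => rw [mul_add, add_mul, ha, hb]
    | single g c =>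
      have h1 : (MonoidAlgebra.single g c : MonoidAlgebra O G) = c • sg O g := by
        rw [sg_apply]; simp
      rw [h1, mul_smul_comm, smul_mul_assoc, hCc]
  have hw : rd (B * C + (1 - B)) = 1 := by
    rw [map_add, map_mul, map_sub, map_one, hC, ← map_mul, hB]; abel
  obtain ⟨y, hy1, hy2, -⟩ := exists_inv_of_rd hw
  have hyc : ∀ a, y * a = a * y := by
    intro a
    have h3 : (B * C + (1 - B)) * a = a * (B * C + (1 - B)) := by
      have h5 : B * C * a = a * (B * C) := by
        rw [mul_assoc, hCc', ← mul_assoc, hBc, mul_assoc]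
      rw [add_mul, mul_add, sub_mul, mul_sub, one_mul, mul_one, h5, hBc a]
    calc y * a = y * a * ((B * C + (1 - B)) * y) := by rw [hy1, mul_one]
      _ = y * (a * (B * C + (1 - B))) * y := by simp only [mul_assoc]
      _ = y * ((B * C + (1 - B)) * a) * y := by rw [h3]
      _ = (y * (B * C + (1 - B))) * a * y := by simp only [mul_assoc]
      _ = a * y := by rw [hy2, one_mul]
  have hBC : B = C * (B * y) := by
    calc B = B * ((B * C + (1 - B)) * y) := by rw [hy1, mul_one]
      _ = (B * B * C + (B - B * B)) * y := by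
        rw [← mul_assoc, mul_add, mul_sub, mul_one, ← mul_assoc]
      _ = C * (B * y) := by rw [hB, sub_self, add_zero, ← hCc', mul_assoc]
  have hyB : ∀ a, (B * y) * a = a * (B * y) := by
    intro a
    rw [mul_assoc, hyc, ← mul_assoc, hBc, mul_assoc]
  refine ⟨n, fun l => lf (u l), fun l => lf (v l) * (B * y), fun l => lf_mem_cen (hu l),
    fun l => ?_, m, q, hq, ?_⟩
  · intro r hr
    rw [← mul_assoc, lf_mem_cen (hv l) r hr, mul_assoc, mul_assoc, ← hyB]
  · conv_lhs => rw [hBC]
    simp only [C, Finset.sum_mul]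
    refine Finset.sum_congr rfl fun j _ => Finset.sum_congr rfl fun l _ => ?_
    have h4 : sg O (q j) * (lf (u l) * I * (lf (v l) * (B * y))) * sg O (q j)⁻¹ =
        sg O (q j) * (lf (u l) * I * lf (v l)) * ((B * y) * sg O (q j)⁻¹) := by
      simp only [mul_assoc]
    rw [h4, hyB]
    simp only [mul_assoc]

end Sec

end Vale.Agent.P180.R2.H259
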