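import Vale.Agent.P180.R2.H259.Iso
import Vale.Agent.P180.R2.H365.Classes
import Vale.Agent.P180.Int.Defs

set_option linter.all false

namespace Vale.Agent.P180.R2.H259

open Vale.Agent.P180 Vale.Agent.P180.I IsLocalRing

universe u

section Frm

variable {k : Type*} [Field k] {G : Type*} [Group G] [Finite G]

/-- the twisted action -/
@[reducible] def twAct {Γ : Type*} [Group Γ] (s : Γ →* G) : MulAction (Γ × Γ) G where
  smul t x := s t.1 * x * (s t.2)⁻¹
  one_smul x := by change s 1 * x * (s 1)⁻¹ = x; simp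
  mul_smul t u x := by
    change s (t.1 * u.1) * x * (s (t.2 * u.2))⁻¹ = s t.1 * (s u.1 * x * (s u.2)⁻¹) * (s t.2)⁻¹
    simp [mul_assoc]

theorem frame_corner {Γ : Type} [Group Γ] [Finite Γ] {i : MonoidAlgebra k G}
    (hi : IsIdempotentElem i) (s : Γ →* G)
    (hk : ∀ g, ((sg k).comp s) g * i = i * ((sg k).comp s) g) {r : ℕ}
    [Module.Finite k hi.Corner] (hr : Module.finrank k hi.Corner = r) :
    Nonempty (Frame k (cRho hi _ hk) (Xi Γ r)) := by
  classical
  have := Fintype.ofFinite G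
  letI := twAct s
  refine exists_frame (Ξ := G) (cRho hi _ hk) hr
    { b := fun ξ => mkC k hi (sg k ξ)
      a := fun ξ => (Finsupp.lapply ξ).comp
        ((MonoidAlgebra.coeffLinearEquiv k).toLinearMap.comp (incC k hi))
      b_smul := ?_
      a_smul := ?_
      sum_eq := ?_ }
  · intro g h ξ
    apply corner_ext
    rw [corner_mul_val, corner_mul_val, cRho_val, cRho_val]
    change i * sg k (s g * ξ * (s h)⁻¹) * i = (sg k (s g) * i) * (i * sg k ξ * i) *
      (sg k (s h⁻¹) * i)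
    have e1 : sg k (s g) * i = i * sg k (s g) := hk g
    have e2 : i * sg k (s h⁻¹) = sg k (s h⁻¹) * i := (hk h⁻¹).symm
    have e3 : (sg k (s g) * i) * (i * sg k ξ * i) * (sg k (s h⁻¹) * i) =
      (sg k (s g) * (i * i)) * sg k ξ * (i * sg k (s h⁻¹)) * i := by simp only [mul_assoc]
    rw [e3, hi.eq, e1, e2, ← map_inv s h, map_mul, map_mul]
    simp only [mul_assoc, hi.eq]
  · intro g h ξ x
    change ((cRho hi _ hk g * x * cRho hi _ hk h⁻¹).1).coeff (s g * ξ * (s h)⁻¹) = x.1.coeff ξ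
    rw [corner_mul_val, corner_mul_val, cRho_val, cRho_val]
    change ((sg k (s g) * i) * x.1 * (sg k (s h⁻¹) * i)).coeff (s g * ξ * (s h)⁻¹) = x.1.coeff ξ
    have e2 : sg k (s h⁻¹) * i = i * sg k (s h⁻¹) := hk h⁻¹
    have e3 : (sg k (s g) * i) * x.1 * (i * sg k (s h⁻¹)) =
      sg k (s g) * ((i * x.1) * i) * sg k (s h⁻¹) := by simp only [mul_assoc]
    rw [e2, e3, corner_left, corner_right, sg_apply, sg_apply,
      MonoidAlgebra.coeff_mul_single_apply, MonoidAlgebra.coeff_single_mul_apply]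
    simp
  · intro x
    have h1 : x = mkC k hi (∑ ξ, x.1.coeff ξ • sg k ξ) := by
      rw [← sum_sg]; exact (mkC_incC hi x).symm
    conv_rhs => rw [h1]
    rw [map_sum]
    simp only [map_smul]
    rfl

end Frm

section Fin

variable {O : Type u} [CommRing O] {G : Type} [Group G]

theorem full_of_gen {R : Subgroup G} {B I : MonoidAlgebra O G} (hg : Gen R B I) :
    ∃ (n : ℕ) (a b : Fin n → MonoidAlgebra O G), ∑ i, a i * I * b i = B := by
  obtain ⟨n, u, v, -, -, m, q, -, hb⟩ := hg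
  refine ⟨m * n, fun t => sg O (q (finProdFinEquiv.symm t).1) * u (finProdFinEquiv.symm t).2,
    fun t => v (finProdFinEquiv.symm t).2 * sg O (q (finProdFinEquiv.symm t).1)⁻¹, ?_⟩
  rw [hb, ← Fintype.sum_prod_type' (fun j l => sg O (q j) * (u l * I * v l) * sg O (q j)⁻¹)]
  refine Fintype.sum_equiv finProdFinEquiv.symm _ _ fun t => ?_
  simp only [mul_assoc]

end Fin

section MT

variable (O : Type u) [CommRing O] [IsLocalRing O] [IsAdicComplete (maximalIdeal O) O]

/-- A block with an idempotent over the residue field. -/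
structure Dt (Γ : Type) [Group Γ] (r : ℕ) : Type (u + 1) where
  G : Type
  grp : Group G
  fin : Finite G
  B : MonoidAlgebra O G
  hB : IsBlockR B
  i : MonoidAlgebra (ResidueField O) G
  hi : IsIdempotentElem i
  s : Γ →* G
  hk : ∀ g, ((sg (ResidueField O)).comp s) g * i = i * ((sg (ResidueField O)).comp s) g
  hbi : rd B * i = i
  hg : Gen s.range (rd B) i
  hr : Module.finrank (ResidueField O) hi.Corner = r

attribute [instance] Dt.grp Dt.fin

variable {O}

theorem corner_finite {k : Type*} [Field k] {G : Type*} [Group G] [Finite G]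
    {i : MonoidAlgebra k G} (hi : IsIdempotentElem i) : Module.Finite k hi.Corner := by
  have : Module.Finite k (MonoidAlgebra k G) :=
    Module.Finite.equiv (MonoidAlgebra.coeffLinearEquiv k).symm
  refine Module.Finite.of_surjective (mkC k hi) fun x => ⟨incC k hi x, mkC_incC hi x⟩

theorem Dt.lift {Γ : Type} [Group Γ] {r : ℕ} (m : Dt O Γ r) :
    ∃ (I : MonoidAlgebra O m.G) (hI : IsIdempotentElem I)
      (hc : ∀ g, ((sg O).comp m.s) g * I = I * ((sg O).comp m.s) g),
      rd I = m.i ∧ Cas O (cRho hI _ hc) ∧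
        IsMoritaEquivalent O m.hB.Alg hI.Corner := by
  have hcen : m.i ∈ cen (ResidueField O) m.s.range := by
    rintro _ ⟨g, rfl⟩
    exact m.hk g
  obtain ⟨I₀, hI₀c, hI₀, hI₀r⟩ := exists_idem_cen m.hi hcen
  have hBc : ∀ a, m.B * a = a * m.B := fun a => (Subalgebra.mem_center_iff.mp m.hB.central a).symm
  have hBB : m.B * m.B = m.B := m.hB.idem
  let I := m.B * I₀
  have hI : IsIdempotentElem I := by
    change m.B * I₀ * (m.B * I₀) = m.B * I₀
    rw [mul_assoc, ← mul_assoc I₀, ← hBc, mul_assoc, ← mul_assoc m.B m.B, hBB, hI₀]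
  have hIr : rd I = m.i := by
    change rd (m.B * I₀) = m.i
    rw [map_mul, hI₀r, m.hbi]
  have hIc : I ∈ cen O m.s.range := by
    intro r hr
    change sg O r * (m.B * I₀) = m.B * I₀ * sg O r
    rw [← mul_assoc, ← hBc, mul_assoc, hI₀c r hr, mul_assoc]
  have hBI : m.B * I = I := by
    change m.B * (m.B * I₀) = m.B * I₀
    rw [← mul_assoc, hBB]
  have hg : Gen m.s.range m.B I := gen_lift hBB hBc hIc (by rw [hIr]; exact m.hg)
  have hc : ∀ g, ((sg O).comp m.s) g * I = I * ((sg O).comp m.s) g := fun g => hIc _ ⟨g, rfl⟩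
  refine ⟨I, hI, hc, hIr, cas_corner hI hBI m.s rfl hc hg, ?_⟩
  exact isMoritaEquivalent_corner_corner m.hB.idem hI hBI (by rw [← hBc, hBI]) (full_of_gen hg)

theorem Dt.morita {Γ : Type} [Group Γ] {r r' : ℕ} (m : Dt O Γ r) (m' : Dt O Γ r')
    (F : m.hi.Corner ≃ₐ[ResidueField O] m'.hi.Corner)
    (hF : ∀ g, F (cRho m.hi _ m.hk g) = cRho m'.hi _ m'.hk g) :
    IsMoritaEquivalent O m.hB.Alg m'.hB.Alg := by
  obtain ⟨I, hI, hc, hIr, hcas, hM⟩ := m.lift
  obtain ⟨I', hI', hc', hIr', -, hM'⟩ := m'.lift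
  obtain ⟨F', -⟩ := iso_lift hI m.hi hIr hI' m'.hi hIr' m.s m'.s hc hc' m.hk m'.hk F hF hcas
  exact (hM.trans O (IsMoritaEquivalent.of_algEquiv O F')).trans O (hM'.symm O)

theorem finite_Dt [IsAlgClosed (ResidueField O)] (Γ : Type) [Group Γ] [Finite Γ] (r : ℕ) :
    ∃ M₀ : Finset (Dt O Γ r), ∀ m : Dt O Γ r, ∃ m₀ ∈ M₀,
      IsMoritaEquivalent O m.hB.Alg m₀.hB.Alg := by
  have hfin : ∀ m : Dt O Γ r, Module.Finite (ResidueField O) m.hi.Corner :=
    fun m => corner_finite m.hi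
  obtain ⟨M₀, hM₀⟩ := H365.finite_classes (k := ResidueField O) (Γ := Γ) (Ξ := Xi Γ r) r
    (M := Dt O Γ r) (fun m => m.hi.Corner) (fun m => m.hr) (fun m => cRho m.hi _ m.hk)
    (fun m => cas_corner m.hi m.hbi m.s rfl m.hk m.hg)
    (fun m => frame_corner m.hi m.s m.hk m.hr)
  refine ⟨M₀, fun m => ?_⟩
  obtain ⟨m₀, h0, F, hF⟩ := hM₀ m
  exact ⟨m₀, h0, m.morita m₀ F hF⟩

theorem gen_of_tr {k : Type*} [Field k] {G : Type*} [Group G] [Finite G] {R : Subgroup G}
    {b i : MonoidAlgebra k G} (hi : i ∈ Fix (cj k G) R) {n : ℕ} (u v : Fin n → MonoidAlgebra k G)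
    (hu : ∀ l, u l ∈ Fix (cj k G) R) (hv : ∀ l, v l ∈ Fix (cj k G) R)
    (hb : b = tr (cj k G) R ⊤ (∑ l, u l * i * v l)) : Gen R b i := by
  have := Fintype.ofFinite (G ⧸ R)
  let e := (Fintype.equivFin (G ⧸ R)).symm
  refine ⟨n, u, v, fun l => mem_Fix_cj_iff.1 (hu l), fun l => mem_Fix_cj_iff.1 (hv l),
    Fintype.card (G ⧸ R), fun j => (e j).out, ?_, ?_⟩
  · have : (fun j => ((e j).out : G ⧸ R)) = e := by
      funext j
      exact QuotientGroup.out_eq' (e j)
    rw [this]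
    exact e.bijective
  · have hw : (∑ l, u l * i * v l) ∈ Fix (cj k G) R :=
      Subalgebra.sum_mem _ fun l _ => Subalgebra.mul_mem _ (Subalgebra.mul_mem _ (hu l) hi) (hv l)
    rw [hb, tr_eq_sum' hw (fun j => (e j).out) (fun _ => Subgroup.mem_top _) ?_ ?_]
    · refine Finset.sum_congr rfl fun j _ => ?_
      rw [cj_eq, Finset.mul_sum, Finset.sum_mul]
      rfl
    · intro j l hjl
      have h1 := QuotientGroup.eq.2 hjl
      rw [QuotientGroup.out_eq', QuotientGroup.out_eq'] at h1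
      exact e.injective h1
    · intro x _
      refine ⟨e.symm (x : G ⧸ R), ?_⟩
      rw [Equiv.apply_symm_apply]
      exact QuotientGroup.eq.1 (QuotientGroup.out_eq' (x : G ⧸ R))

/-- the datum of an abstract group isomorphism -/
def mkDt {Γ : Type} [Group Γ] {G : Type} [Group G] [Finite G] {B : MonoidAlgebra O G}
    (hB : IsBlockR B) {R : Subgroup G} (e : R ≃* Γ) {i : MonoidAlgebra (ResidueField O) G}
    (hi : IsIdempotentElem i)
    (hRi : ∀ r ∈ R, sg (ResidueField O) r * i = i * sg (ResidueField O) r)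
    (hBi : rd B * i = i) (hg : Gen R (rd B) i) :
    Dt O Γ (Module.finrank (ResidueField O) hi.Corner) :=
  { G := G, grp := inferInstance, fin := inferInstance, B := B, hB := hB, i := i, hi := hi
    s := R.subtype.comp e.symm.toMonoidHom
    hk := fun g => hRi _ (e.symm g).2
    hbi := hBi
    hg := by
      have hs : (R.subtype.comp e.symm.toMonoidHom).range = R := by
        ext x
        constructor
        · rintro ⟨t, rfl⟩
          exact (e.symm t).2
        · intro hx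
          exact ⟨e ⟨x, hx⟩, by simp⟩
      rw [hs]; exact hg
    hr := rfl }

variable (O)

theorem main [IsAlgClosed (ResidueField O)] (n : ℕ) :
    ∃ (N : ℕ) (H : Fin N → Type) (_ : ∀ j, Group (H j)) (_ : ∀ j, Finite (H j))
      (c : ∀ j, MonoidAlgebra O (H j)) (hc : ∀ j, IsBlockR (c j)),
      ∀ (G : Type) [Group G] [Finite G] (B : MonoidAlgebra O G) (hB : IsBlockR B)
        (R : Subgroup G) (i : MonoidAlgebra (ResidueField O) G) (hi : IsIdempotentElem i),
        Nat.card R ≤ n → (∀ r ∈ R, sg (ResidueField O) r * i = i * sg (ResidueField O) r) →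
        rd B * i = i → Gen R (rd B) i → Module.finrank (ResidueField O) hi.Corner ≤ n →
        ∃ j, IsMoritaEquivalent O hB.Alg (hc j).Alg := by
  classical
  choose M₀ hM₀ using fun (x : GrpIdx n × Fin (n + 1)) =>
    @finite_Dt O _ _ _ _ (Fin x.1.1) x.1.inst _ x.2
  let J : Type (u + 1) := Σ x : GrpIdx n × Fin (n + 1), {m // m ∈ M₀ x}
  have hJ : Finite J := inferInstance
  let eJ := Finite.equivFin J
  refine ⟨Nat.card J, fun j => @Dt.G _ _ _ _ (eJ.symm j).1.1.inst _ (eJ.symm j).2.1,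
    fun j => @Dt.grp _ _ _ _ (eJ.symm j).1.1.inst _ (eJ.symm j).2.1,
    fun j => @Dt.fin _ _ _ _ (eJ.symm j).1.1.inst _ (eJ.symm j).2.1,
    fun j => @Dt.B _ _ _ _ (eJ.symm j).1.1.inst _ (eJ.symm j).2.1,
    fun j => @Dt.hB _ _ _ _ (eJ.symm j).1.1.inst _ (eJ.symm j).2.1, ?_⟩
  intro G _ _ B hB R i hi hR hRi hBi hg hr
  obtain ⟨γ, ⟨e⟩⟩ := exists_grpIdx n R hR
  let m := @mkDt O _ _ (Fin γ.1) γ.inst G _ _ B hB R e i hi hRi hBi hg
  let x : GrpIdx n × Fin (n + 1) := ⟨γ, ⟨_, Nat.lt_succ_of_le hr⟩⟩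
  obtain ⟨m₀, h0, hm₀⟩ := hM₀ x m
  let j : J := ⟨x, ⟨m₀, h0⟩⟩
  refine ⟨eJ j, ?_⟩
  have key : ∀ j' : J, j' = j → IsMoritaEquivalent O hB.Alg
      (@Dt.hB _ _ _ _ j'.1.1.inst _ j'.2.1).Alg := by
    rintro _ rfl
    exact hm₀
  exact key (eJ.symm (eJ j)) (eJ.symm_apply_apply j)

end MT

end Vale.Agent.P180.R2.H259
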