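import Vale.Agent.P180.R2.H259.Unif
import Vale.Agent.P180.R2.H365.Gen

set_option linter.all false

namespace Vale.Agent.P180.R2.H259

open Vale.Agent.P180 IsLocalRing

universe u

/-- There are a subgroup `R` of order at most `n` and an idempotent `i` of `kG` with `b i = i`,
centralised by `R`, such that `b` lies in the ideal `Tr_R^G ((kG)^R i (kG)^R)` of relative traces
(see `Gen`) and `i kG i` has dimension at most `n`. -/
def SmallCorner {k : Type u} [Field k] {G : Type} [Group G] (n : ℕ) (b : MonoidAlgebra k G) :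
    Prop :=
  ∃ (R : Subgroup G) (i : MonoidAlgebra k G) (hi : IsIdempotentElem i),
    Nat.card R ≤ n ∧
    (∀ r ∈ R, MonoidAlgebra.single r 1 * i = i * MonoidAlgebra.single r 1) ∧
    b * i = i ∧ Gen R b i ∧ Module.finrank k hi.Corner ≤ n

theorem smallCorner_of_source {p : ℕ} [Fact p.Prime] {k : Type u} [Field k] [IsAlgClosed k]
    [CharP k p] {G : Type} [Group G] [Finite G] {n : ℕ} {b : MonoidAlgebra k G} (hb : IsBlockR b)
    {D : Subgroup G} (hD : IsPGroup p D) (hbD : IsSummandOfInducedR b D) (hn : Nat.card D ≤ n)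
    {i : MonoidAlgebra k G} (hi : IsIdempotentElem i)
    (hDi : ∀ x ∈ D, MonoidAlgebra.single x 1 * i = i * MonoidAlgebra.single x 1)
    (hbi : b * i = i) (hx : ∃ x, (∀ y ∈ D, y * x = x * y) ∧ i.coeff x ≠ 0)
    (hr : Module.finrank k hi.Corner ≤ n) : SmallCorner n b := by
  have hb' := I.isBlockR_iff.mp hb
  have hbt := isBlock_iff.mp hb'
  have hbc : ∀ z : MonoidAlgebra k G, z * b = b * z :=
    Subalgebra.mem_center_iff.mp hb.central
  obtain ⟨a, ha, hba⟩ := exists_trace hb' (hb'.isSummand hbD)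
  have hiF : i ∈ Fix (cj k G) D := mem_Fix_cj_iff.2 hDi
  have hne : H768.Gd.br D (i * b) ≠ 0 := by
    obtain ⟨x, hx1, hx2⟩ := hx
    intro h
    apply hx2
    have h1 := congrArg (fun f : MonoidAlgebra k G => f.coeff x) h
    simp only [H768.Gd.br_coeff, MonoidAlgebra.coeff_zero] at h1
    rw [if_pos (Subgroup.mem_centralizer_iff.2 fun y hy => hx1 y hy), hbc, hbi] at h1
    exact h1
  obtain ⟨w, hw, hwb, hbw⟩ := H365.gen hbt hD ha hba hiF hi hne
  refine ⟨D, i, hi, hn, hDi, hbi, ?_, hr⟩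
  refine gen_of_tr (n := 1) hiF (fun _ => b) (fun _ => w)
    (fun _ => Fix_mono _ le_top hbt.mem.2) (fun _ => hw) ?_
  have : ∑ l : Fin 1, b * i * w = i * w := by simp [hbi]
  rw [this]
  exact hbw

end Vale.Agent.P180.R2.H259
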