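import Vale.Agent.P180.R2.H259.Base

namespace Vale.Agent.P180.R2.H259.Spec

open MvPolynomial

/-- (V+W), owner helper365. The proof: tables + minimal primes + Krull + `newton` with `S = R` or
`R/m^j`, initial map `x ↦ ∑ ξ, a ξ x • b' ξ`, and its analogue backwards for the inverse. -/
theorem finite_classes {k : Type*} [Field k] [IsAlgClosed k] {Γ : Type} [Group Γ] [Finite Γ]
    {Ξ : Type} [Fintype Ξ] [MulAction (Γ × Γ) Ξ] (r : ℕ) {M : Type*} (A : M → Type*)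
    [∀ m, Ring (A m)] [∀ m, Algebra k (A m)] [∀ m, Module.Finite k (A m)]
    (hr : ∀ m, Module.finrank k (A m) = r) (ρ : ∀ m, Γ →* A m)
    (hc : ∀ m, Cas k (ρ m)) (hf : ∀ m, Nonempty (Frame k (ρ m) Ξ)) :
    ∃ M₀ : Finset M, ∀ m, ∃ m₀ ∈ M₀, ∃ F : A m ≃ₐ[k] A m₀, ∀ g, F (ρ m g) = ρ m₀ g := by
  sorry

/-- (V), an abstract form: `X` a set of points, `g` the equations of isomorphism. -/
theorem finite_orbits {k : Type*} [Field k] [IsAlgClosed k] {σ τ ι κ : Type*} [Finite σ] [Finite τ]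
    (X : κ → MvPolynomial σ k) (g : ι → MvPolynomial ((σ ⊕ σ) ⊕ τ) k) (Y : Set (σ → k))
    (hX : ∀ y ∈ Y, ∀ i, eval y (X i) = 0)
    (hsymm : ∀ (Ω : Type _) [Field Ω] [Algebra k Ω] (y z : σ → Ω),
      (∀ i, aeval y (X i) = 0) → (∀ i, aeval z (X i) = 0) →
      (∃ t, ∀ i, aeval (Sum.elim (Sum.elim y z) t) (g i) = 0) →
      ∃ t, ∀ i, aeval (Sum.elim (Sum.elim z y) t) (g i) = 0)
    (htrans : ∀ (Ω : Type _) [Field Ω] [Algebra k Ω] (x y z : σ → Ω),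
      (∀ i, aeval x (X i) = 0) → (∀ i, aeval y (X i) = 0) → (∀ i, aeval z (X i) = 0) →
      (∃ t, ∀ i, aeval (Sum.elim (Sum.elim x y) t) (g i) = 0) →
      (∃ t, ∀ i, aeval (Sum.elim (Sum.elim y z) t) (g i) = 0) →
      ∃ t, ∀ i, aeval (Sum.elim (Sum.elim x z) t) (g i) = 0)
    (hdef : ∀ (R : Type _) [CommRing R] [IsDomain R] [Algebra k R] (φ : R →ₐ[k] k) (η : σ → R),
      (∀ i, aeval η (X i) = 0) → (fun s => φ (η s)) ∈ Y → ∀ j : ℕ,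
      ∃ t : τ → R, ∀ i, aeval (Sum.elim (Sum.elim (fun s => algebraMap k R (φ (η s))) η) t) (g i) ∈
        RingHom.ker φ ^ j) :
    ∃ Y₀ : Finset (σ → k), (Y₀ : Set (σ → k)) ⊆ Y ∧ ∀ y ∈ Y, ∃ z ∈ Y₀,
      ∃ t, ∀ i, eval (Sum.elim (Sum.elim y z) t) (g i) = 0 := by
  sorry

end Vale.Agent.P180.R2.H259.Spec
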