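import Vale.Agent.P180.R2.H259.Desc
import Vale.Agent.P180.R2.H259.Mt

set_option linter.all false

namespace Vale.Agent.P180.R2.H259

open Vale.Agent.P180 Vale.Agent.P180.I IsLocalRing

universe u v

theorem exists_point (K : Type u) [Field K] [IsAlgClosed K] (T : Type v) [CommRing T] [Algebra K T]
    [Algebra.FiniteType K T] [Nontrivial T] : Nonempty (T →ₐ[K] K) := by
  obtain ⟨M, hM⟩ := Ideal.exists_maximal T
  let _ : Field (T ⧸ M) := Ideal.Quotient.field M
  have : Algebra.FiniteType K (T ⧸ M) :=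
    Algebra.FiniteType.of_surjective (Ideal.Quotient.mkₐ K M) (Ideal.Quotient.mkₐ_surjective K M)
  have : Module.Finite K (T ⧸ M) := finite_of_finite_type_of_isJacobsonRing K (T ⧸ M)
  have : Algebra.IsAlgebraic K (T ⧸ M) := Algebra.IsAlgebraic.of_finite K (T ⧸ M)
  exact ⟨(IsAlgClosed.lift : (T ⧸ M) →ₐ[K] K).comp (Ideal.Quotient.mkₐ K M)⟩

theorem mp_mp {R S T : Type*} [CommRing R] [CommRing S] [CommRing T] {G : Type*} [Group G]
    (f : R →+* S) (g : S →+* T) (a : MonoidAlgebra R G) : mp g (mp f a) = mp (g.comp f) a := by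
  apply MonoidAlgebra.coeff_injective
  ext x
  simp only [mp_coeff, RingHom.comp_apply]

theorem specialise {κ : Type u} {k : Type v} [Field κ] [IsAlgClosed κ] [Field k] (j : κ →+* k)
    {G : Type*} [Group G] [Finite G] {R : Subgroup G} {b' : MonoidAlgebra κ G}
    {i : MonoidAlgebra k G} (hi : IsIdempotentElem i)
    (hRi : ∀ r ∈ R, sg k r * i = i * sg k r) (hbi : mp j b' * i = i) (hg : Gen R (mp j b') i) :
    ∃ (i' : MonoidAlgebra κ G) (hi' : IsIdempotentElem i'),
      (∀ r ∈ R, sg κ r * i' = i' * sg κ r) ∧ b' * i' = i' ∧ Gen R b' i' ∧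
        Module.finrank κ hi'.Corner ≤ Module.finrank k hi.Corner := by
  classical
  have := Fintype.ofFinite G
  letI := j.toAlgebra
  obtain ⟨n, u, v, hu, hv, m, q, hq, hb⟩ := hg
  have := corner_finite hi
  let B := Module.finBasis k hi.Corner
  let T : Set k := Set.range (fun x => i.coeff x) ∪
    (Set.range (fun t : Fin n × G => (u t.1).coeff t.2) ∪
    (Set.range (fun t : Fin n × G => (v t.1).coeff t.2) ∪
    (Set.range (fun t : Fin (Module.finrank k hi.Corner) × G => (B t.1).1.coeff t.2) ∪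
    Set.range (fun t : Fin (Module.finrank k hi.Corner) × G =>
      B.repr (mkC k hi (sg k t.2)) t.1))))
  have hT : T.Finite := (Set.finite_range _).union ((Set.finite_range _).union
    ((Set.finite_range _).union ((Set.finite_range _).union (Set.finite_range _))))
  let S := Algebra.adjoin κ T
  have hST : T ⊆ S := Algebra.subset_adjoin
  have hfg : Algebra.FiniteType κ S := by
    rw [← Subalgebra.fg_iff_finiteType]
    exact ⟨hT.toFinset, by simp [S]⟩
  obtain ⟨θ⟩ := exists_point κ S
  let ι : S →+* k := S.val.toRingHom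
  have hι : Function.Injective ι := Subtype.val_injective
  have hinj := mp_inj ι (G := G) hι
  have hr : ∀ c ∈ T, c ∈ ι.range := fun c hc => ⟨⟨c, hST hc⟩, rfl⟩
  obtain ⟨I, hI⟩ := exists_mp ι (a := i) fun x => hr _ (Or.inl ⟨x, rfl⟩)
  choose U hU using fun l => exists_mp ι (a := u l) fun x => hr _ (Or.inr (Or.inl ⟨(l, x), rfl⟩))
  choose V hV using fun l => exists_mp ι (a := v l) fun x =>
    hr _ (Or.inr (Or.inr (Or.inl ⟨(l, x), rfl⟩)))
  choose A hA using fun t => exists_mp ι (a := (B t).1) fun x =>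
    hr _ (Or.inr (Or.inr (Or.inr (Or.inl ⟨(t, x), rfl⟩))))
  have hL : ∀ (g : G) t, ∃ c : S, ι c = B.repr (mkC k hi (sg k g)) t := fun g t =>
    hr _ (Or.inr (Or.inr (Or.inr (Or.inr ⟨(t, g), rfl⟩))))
  choose L hL using hL
  let b₀ : MonoidAlgebra S G := mp (algebraMap κ S) b'
  have hb₀ : mp ι b₀ = mp j b' := by
    change mp ι (mp (algebraMap κ S) b') = _
    rw [mp_mp]; rfl
  have hb₀' : mp θ.toRingHom b₀ = b' := by
    change mp θ.toRingHom (mp (algebraMap κ S) b') = _
    rw [mp_mp]
    have : θ.toRingHom.comp (algebraMap κ S) = RingHom.id κ := by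
      ext x
      exact θ.commutes x
    rw [this]
    apply MonoidAlgebra.coeff_injective
    ext x
    rw [mp_coeff]; rfl
  have hII : I * I = I := hinj (by rw [map_mul, hI, hi.eq])
  have hIR : ∀ r ∈ R, sg S r * I = I * sg S r := fun r hr => hinj (by
    rw [map_mul, map_mul, hI, mp_sg, hRi r hr])
  have hbI : b₀ * I = I := hinj (by rw [map_mul, hI, hb₀, hbi])
  have hgen : Gen R b₀ I := by
    refine ⟨n, U, V, fun l r hr => hinj ?_, fun l r hr => hinj ?_, m, q, hq, hinj ?_⟩
    · rw [map_mul, map_mul, hU, mp_sg, hu l r hr]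
    · rw [map_mul, map_mul, hV, mp_sg, hv l r hr]
    · rw [hb₀, hb]
      simp only [map_sum, map_mul, mp_sg, hU, hV, hI]
  have hgI : ∀ g, I * sg S g * I = ∑ t, L g t • A t := by
    intro g
    apply hinj
    rw [map_mul, map_mul, hI, mp_sg, map_sum]
    have h1 : (mkC k hi (sg k g)).1 = (∑ t, B.repr (mkC k hi (sg k g)) t • B t).1 := by
      rw [B.sum_repr]
    have h2 : (∑ t, B.repr (mkC k hi (sg k g)) t • B t).1 =
        ∑ t, (B.repr (mkC k hi (sg k g)) t • B t).1 := map_sum (incC k hi) _ _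
    rw [h2] at h1
    change i * sg k g * i = _ at h1
    rw [h1]
    refine Finset.sum_congr rfl fun t _ => ?_
    rw [mp_smul, hL, hA]
    rfl
  let i' : MonoidAlgebra κ G := mp θ.toRingHom I
  have hi' : IsIdempotentElem i' := by
    change mp θ.toRingHom I * mp θ.toRingHom I = mp θ.toRingHom I
    rw [← map_mul, hII]
  refine ⟨i', hi', fun r hr => ?_, ?_, ?_, ?_⟩
  · change sg κ r * mp θ.toRingHom I = mp θ.toRingHom I * sg κ r
    rw [← mp_sg θ.toRingHom, ← map_mul, hIR r hr, map_mul]
  · change b' * mp θ.toRingHom I = mp θ.toRingHom I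
    conv_lhs => rw [← hb₀']
    rw [← map_mul, hbI]
  · have := mp_gen θ.toRingHom hgen
    rwa [hb₀'] at this
  · have hspan : (⊤ : Submodule κ hi'.Corner) ≤
        Submodule.span κ (Set.range fun t => mkC κ hi' (mp θ.toRingHom (A t))) := by
      intro y _
      have h3 : y = ∑ g, y.1.coeff g • mkC κ hi' (sg κ g) := by
        have h0 : mkC κ hi' (incC κ hi' y) = y := mkC_incC hi' y
        conv_lhs => rw [← h0]
        change mkC κ hi' y.1 = _
        conv_lhs => rw [sum_sg y.1]
        rw [map_sum]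
        simp only [map_smul]
      rw [h3]
      refine Submodule.sum_mem _ fun g _ => Submodule.smul_mem _ _ ?_
      have h4 : mkC κ hi' (sg κ g) = mkC κ hi' (i' * sg κ g * i') := by
        apply corner_ext
        change i' * sg κ g * i' = i' * (i' * sg κ g * i') * i'
        rw [mul_assoc i' (sg κ g), ← mul_assoc i' i', hi'.eq, mul_assoc i' (sg κ g * i'), mul_assoc
          (sg κ g) i' i', hi'.eq]
      have h5 : i' * sg κ g * i' = ∑ t, θ (L g t) • mp θ.toRingHom (A t) := by
        change mp θ.toRingHom I * sg κ g * mp θ.toRingHom I = _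
        rw [← mp_sg θ.toRingHom, ← map_mul, ← map_mul, hgI, map_sum]
        refine Finset.sum_congr rfl fun t _ => ?_
        rw [mp_smul]
        rfl
      rw [h4, h5, map_sum]
      refine Submodule.sum_mem _ fun t _ => ?_
      rw [map_smul]
      exact Submodule.smul_mem _ _ (Submodule.subset_span ⟨t, rfl⟩)
    have h6 := finrank_range_le_card (R := κ) (fun t => mkC κ hi' (mp θ.toRingHom (A t)))
    rw [Set.finrank, top_le_iff.1 hspan, finrank_top] at h6
    simpa using h6

end Vale.Agent.P180.R2.H259
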