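import Mathlib

namespace Vale.Agent.P180.R2.H259

section Casimir

variable {K A Γ : Type*} [Field K] [Ring A] [Algebra K A] [Group Γ] [Finite Γ]

theorem exists_full [CharZero K] (ρ : Γ →* A) {ι : Type*} [Fintype ι] (x y : ι → A)
    (hb : ∀ β : A →ₗ[K] A →ₗ[K] A, (∀ a b g, β (a * ρ g) b = β a (ρ g * b)) →
      ∀ a, ∑ j, β (a * x j) (y j) = ∑ j, β (x j) (y j * a))
    (h1 : ∑ j, x j * y j = 1) :
    ∃ (n : ℕ) (X Y : Fin n → A), (∀ (β : A →ₗ[K] A →ₗ[K] A) (a : A),
      ∑ j, β (a * X j) (Y j) = ∑ j, β (X j) (Y j * a)) ∧ ∑ j, X j * Y j = 1 := by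
  classical
  have := Fintype.ofFinite Γ
  have key : ∃ (X Y : ι × Γ → A), (∀ (β : A →ₗ[K] A →ₗ[K] A) (a : A),
      ∑ j, β (a * X j) (Y j) = ∑ j, β (X j) (Y j * a)) ∧ ∑ j, X j * Y j = 1 := by
    have hc : (Fintype.card Γ : K) ≠ 0 := by exact_mod_cast Fintype.card_ne_zero
    refine ⟨fun j => x j.1 * ρ j.2, fun j => (Fintype.card Γ : K)⁻¹ • (ρ j.2⁻¹ * y j.1), ?_, ?_⟩
    · intro β a
      set β' : A →ₗ[K] A →ₗ[K] A := ∑ g : Γ, (Fintype.card Γ : K)⁻¹ •
        (β.compl₁₂ (LinearMap.mulRight K (ρ g)) (LinearMap.mulLeft K (ρ g⁻¹))) with hβ'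
      have hval : ∀ a b, β' a b = ∑ g : Γ, (Fintype.card Γ : K)⁻¹ • β (a * ρ g) (ρ g⁻¹ * b) := by
        intro a b
        simp [hβ']
      have := hb β' (by
        intro a b h
        rw [hval, hval]
        refine Fintype.sum_equiv (Equiv.mulLeft h) _ _ fun g => ?_
        simp only [Equiv.coe_mulLeft, mul_inv_rev, map_mul]
        rw [mul_assoc a, mul_assoc (ρ g⁻¹), ← mul_assoc (ρ h⁻¹), ← map_mul ρ h⁻¹, inv_mul_cancel,
          map_one, one_mul]) a
      simp only [hval] at this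
      rw [Fintype.sum_prod_type, Fintype.sum_prod_type]
      simp only [map_smul, smul_mul_assoc]
      rw [show (∑ j, ∑ g : Γ, (Fintype.card Γ : K)⁻¹ • β (a * (x j * ρ g)) (ρ g⁻¹ * y j)) =
        ∑ j, ∑ g : Γ, (Fintype.card Γ : K)⁻¹ • β (a * x j * ρ g) (ρ g⁻¹ * y j) by
          simp only [mul_assoc]]
      rw [this]
      simp only [mul_assoc]
    · rw [Fintype.sum_prod_type]
      have : ∀ j, ∑ g : Γ, x j * ρ g * ((Fintype.card Γ : K)⁻¹ • (ρ g⁻¹ * y j)) = x j * y j := by
        intro j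
        have h2 : ∀ g : Γ, x j * ρ g * ((Fintype.card Γ : K)⁻¹ • (ρ g⁻¹ * y j)) =
            (Fintype.card Γ : K)⁻¹ • (x j * y j) := by
          intro g
          rw [mul_smul_comm, mul_assoc, ← mul_assoc (ρ g), ← map_mul, mul_inv_cancel, map_one,
            one_mul]
        simp only [h2, Finset.sum_const, Finset.card_univ]
        rw [← Nat.cast_smul_eq_nsmul K, smul_smul, mul_inv_cancel₀ hc, one_smul]
      simp only [this, h1]
  obtain ⟨X, Y, h2, h3⟩ := key
  have e := Fintype.equivFin (ι × Γ)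
  refine ⟨Fintype.card (ι × Γ), X ∘ e.symm, Y ∘ e.symm, ?_, ?_⟩
  · intro β a
    simp only [Function.comp]
    rw [Equiv.sum_comp e.symm (fun j => β (a * X j) (Y j)),
      Equiv.sum_comp e.symm (fun j => β (X j) (Y j * a))]
    exact h2 β a
  · simp only [Function.comp]
    rw [Equiv.sum_comp e.symm (fun j => X j * Y j)]
    exact h3

theorem exists_f [CharZero K] (ρ : Γ →* A) {n : ℕ} (X Y : Fin n → A)
    (hb : ∀ (β : A →ₗ[K] A →ₗ[K] A) (a : A), ∑ j, β (a * X j) (Y j) = ∑ j, β (X j) (Y j * a))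
    (h1 : ∑ j, X j * Y j = 1) (μ : A →ₗ[K] A →ₗ[K] A) (τ : Γ → A)
    (h2 : ∀ a b c, μ a b * c + μ (a * b) c = a * μ b c + μ a (b * c))
    (h3 : ∀ g h, τ (g * h) = μ (ρ g) (ρ h) + τ g * ρ h + ρ g * τ h) :
    ∃ f : A →ₗ[K] A, (∀ a b, μ a b = f (a * b) - f a * b - a * f b) ∧ ∀ g, τ g = f (ρ g) := by
  classical
  have := Fintype.ofFinite Γ
  have hc : (Fintype.card Γ : K) ≠ 0 := by exact_mod_cast Fintype.card_ne_zero
  set h : A →ₗ[K] A := ∑ j, (LinearMap.mulLeft K (X j)).comp (μ (Y j)) with hh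
  have hval : ∀ a, h a = ∑ j, X j * μ (Y j) a := by
    intro a; simp [hh]
  have hμ : ∀ a b, μ a b = -h (a * b) + a * h b + h a * b := by
    intro a b
    have e1 : ∀ j, X j * μ (Y j) (a * b) = X j * μ (Y j * a) b + X j * μ (Y j) a * b
        - X j * Y j * μ a b := by
      intro j
      have := h2 (Y j) a b
      have h4 : μ (Y j) (a * b) = μ (Y j) a * b + μ (Y j * a) b - Y j * μ a b := by
        rw [this]; abel
      rw [h4]; simp only [mul_add, mul_sub, mul_assoc]; abel
    have e2 : ∑ j, X j * μ (Y j * a) b = a * h b := by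
      have := hb ((LinearMap.mul K A).compl₂ (μ.flip b)) a
      simp only [LinearMap.compl₂_apply, LinearMap.mul_apply', LinearMap.flip_apply] at this
      rw [← this, hval, Finset.mul_sum]
      simp only [mul_assoc]
    rw [hval (a * b)]
    simp only [e1, Finset.sum_sub_distrib, Finset.sum_add_distrib]
    rw [e2, ← Finset.sum_mul, ← Finset.sum_mul, h1, hval a]
    simp only [one_mul]
    abel
  set δ : Γ → A := fun g => (τ g + h (ρ g)) * ρ g⁻¹ with hδ
  have hinv : ∀ g, ρ g * ρ g⁻¹ = 1 := fun g => by rw [← map_mul, mul_inv_cancel, map_one]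
  have hinv' : ∀ g, ρ g⁻¹ * ρ g = 1 := fun g => by rw [← map_mul, inv_mul_cancel, map_one]
  have hδm : ∀ g k, δ (g * k) = δ g + ρ g * δ k * ρ g⁻¹ := by
    intro g k
    simp only [hδ]
    rw [h3, hμ, ← map_mul ρ g k, mul_inv_rev, map_mul ρ k⁻¹ g⁻¹]
    have : -h (ρ (g * k)) + ρ g * h (ρ k) + h (ρ g) * ρ k + τ g * ρ k + ρ g * τ k + h (ρ (g * k))
        = (τ g + h (ρ g)) * ρ k + ρ g * (τ k + h (ρ k)) := by
      simp only [add_mul, mul_add]; abel
    rw [this, add_mul, ← mul_assoc, ← mul_assoc, mul_assoc (τ g + h (ρ g)), hinv, mul_one]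
    simp only [mul_assoc]
  set u : A := (Fintype.card Γ : K)⁻¹ • ∑ k : Γ, δ k with hu
  have hus : (Fintype.card Γ : K) • u = ∑ k : Γ, δ k := by
    rw [hu, smul_smul, mul_inv_cancel₀ hc, one_smul]
  have hcoc : ∀ g, δ g = u - ρ g * u * ρ g⁻¹ := by
    intro g
    have h5 : ∑ k : Γ, δ (g * k) = ∑ k : Γ, δ k := Fintype.sum_equiv (Equiv.mulLeft g) _ _ (by simp)
    have h6 : ∑ k : Γ, δ (g * k) = (Fintype.card Γ : K) • δ g +
        (Fintype.card Γ : K) • (ρ g * u * ρ g⁻¹) := by
      simp only [hδm, Finset.sum_add_distrib, Finset.sum_const, Finset.card_univ]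
      rw [← Finset.sum_mul, ← Finset.mul_sum, ← hus, ← Nat.cast_smul_eq_nsmul K]
      simp only [mul_smul_comm, smul_mul_assoc]
    rw [h5, ← hus, ← smul_add] at h6
    have h7 : u = δ g + ρ g * u * ρ g⁻¹ := smul_right_injective A hc h6
    rw [eq_sub_iff_add_eq]
    exact h7.symm
  refine ⟨-h + (LinearMap.mulLeft K u - LinearMap.mulRight K u), ?_, ?_⟩
  · intro a b
    rw [hμ]
    simp only [LinearMap.add_apply, LinearMap.neg_apply, LinearMap.sub_apply,
      LinearMap.mulLeft_apply, LinearMap.mulRight_apply, add_mul, mul_add, sub_mul, mul_sub,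
      neg_mul, mul_neg, mul_assoc]
    abel
  · intro g
    have h8 : δ g * ρ g = τ g + h (ρ g) := by
      simp only [hδ]; rw [mul_assoc, hinv', mul_one]
    have h9 : δ g * ρ g = u * ρ g - ρ g * u := by
      rw [hcoc, sub_mul, mul_assoc (ρ g * u), hinv', mul_one]
    simp only [LinearMap.add_apply, LinearMap.neg_apply, LinearMap.sub_apply,
      LinearMap.mulLeft_apply, LinearMap.mulRight_apply]
    rw [← h9, h8]; abel

end Casimir

section Bound

variable {K A Γ : Type*} [Field K] [Ring A] [Algebra K A] [Group Γ]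

/-- d1 -/
def dd (K : Type*) {A Γ : Type*} [Field K] [Ring A] [Algebra K A] [Group Γ] (ρ : Γ →* A) :
    (A →ₗ[K] A) →ₗ[K] (A →ₗ[K] A →ₗ[K] A) × (Γ → A) where
  toFun f := (LinearMap.mk₂ K (fun a b => f (a * b) - f a * b - a * f b)
    (by intro a b c; simp only [add_mul, map_add]; abel)
    (by intro c a b; simp only [smul_mul_assoc, map_smul, smul_sub])
    (by intro a b c; simp only [mul_add, map_add]; abel)
    (by intro c a b; simp only [mul_smul_comm, map_smul, smul_sub]), fun g => f (ρ g))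
  map_add' f g := by
    ext
    · simp only [LinearMap.mk₂_apply, LinearMap.add_apply, Prod.fst_add, add_mul, mul_add]
      abel
    · simp
  map_smul' c f := by
    ext
    · simp only [LinearMap.mk₂_apply, LinearMap.smul_apply, Prod.smul_fst, smul_mul_assoc,
        mul_smul_comm, RingHom.id_apply, smul_sub]
    · simp

theorem tangent_bound [CharZero K] [Module.Finite K A] [Finite Γ] (ρ : Γ →* A)
    {ι : Type*} [Fintype ι] (x y : ι → A)
    (hb : ∀ β : A →ₗ[K] A →ₗ[K] A, (∀ a b g, β (a * ρ g) b = β a (ρ g * b)) →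
      ∀ a, ∑ j, β (a * x j) (y j) = ∑ j, β (x j) (y j * a))
    (h1 : ∑ j, x j * y j = 1)
    (e : ℕ) (u : Fin e → A) (hu : ∀ i g, u i * ρ g = ρ g * u i)
    (hi : LinearIndependent K fun i => LinearMap.mulLeft K (u i) - LinearMap.mulRight K (u i))
    (m : ℕ) (μ : Fin m → A →ₗ[K] A →ₗ[K] A) (τ : Fin m → Γ → A)
    (h2 : ∀ i a b c, μ i a b * c + μ i (a * b) c = a * μ i b c + μ i a (b * c))
    (h3 : ∀ i g h, τ i (g * h) = μ i (ρ g) (ρ h) + τ i g * ρ h + ρ g * τ i h)
    (hl : LinearIndependent K fun i => (μ i, τ i)) :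
    m + e ≤ Module.finrank K A ^ 2 := by
  classical
  obtain ⟨n, X, Y, hb', h1'⟩ := exists_full ρ x y hb h1
  have hr := LinearMap.finrank_range_add_finrank_ker (K := K) (V := A →ₗ[K] A)
    (V₂ := (A →ₗ[K] A →ₗ[K] A) × (Γ → A)) (dd K ρ)
  rw [Module.finrank_linearMap] at hr
  have hk : e ≤ Module.finrank K (LinearMap.ker (dd K ρ)) := by
    have : ∀ i, LinearMap.mulLeft K (u i) - LinearMap.mulRight K (u i) ∈
        LinearMap.ker (dd K ρ) := by
      intro i
      rw [LinearMap.mem_ker]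
      ext a b
      · simp only [dd, LinearMap.coe_mk, AddHom.coe_mk, LinearMap.mk₂_apply, LinearMap.sub_apply,
          LinearMap.mulLeft_apply, LinearMap.mulRight_apply, sub_mul, mul_sub, mul_assoc]
        simp
      · simp only [dd, LinearMap.coe_mk, AddHom.coe_mk, LinearMap.sub_apply,
          LinearMap.mulLeft_apply, LinearMap.mulRight_apply, hu]
        simp
    have hli : LinearIndependent K (fun i => (⟨_, this i⟩ : LinearMap.ker (dd K ρ))) := by
      apply LinearIndependent.of_comp (LinearMap.ker (dd K ρ)).subtype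
      exact hi
    simpa using hli.fintype_card_le_finrank
  have hm : m ≤ Module.finrank K (LinearMap.range (dd K ρ)) := by
    have : ∀ i, (μ i, τ i) ∈ LinearMap.range (dd K ρ) := by
      intro i
      obtain ⟨f, hf1, hf2⟩ := exists_f ρ X Y hb' h1' (μ i) (τ i) (h2 i) (h3 i)
      refine ⟨f, ?_⟩
      ext a b
      · simp only [dd, LinearMap.coe_mk, AddHom.coe_mk, LinearMap.mk₂_apply, hf1]
      · simp only [dd, LinearMap.coe_mk, AddHom.coe_mk, hf2]
    have hli : LinearIndependent K (fun i => (⟨_, this i⟩ : LinearMap.range (dd K ρ))) := by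
      apply LinearIndependent.of_comp (LinearMap.range (dd K ρ)).subtype
      exact hl
    simpa using hli.fintype_card_le_finrank
  rw [sq]
  omega

end Bound

end Vale.Agent.P180.R2.H259
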